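import Vale.Agent.P088.H158.PushA

/-!
# P088, row PUSH, second part: the push-forward is divergence free; the row
-/

open MeasureTheory Set
open scoped ContDiff Matrix

noncomputable section

namespace Vale.Agent.P088.LR.H158

open Vale.Agent.P088.LR

variable {n : ℕ}

/-! ### derivatives -/

theorem fderiv_zero_off {F : Type*} [NormedAddCommGroup F] [NormedSpace ℝ F] {Ω : Set (V n)}
    (hi : interior (closure Ω) = Ω) {G : V n → F} (hG : ContDiff ℝ ∞ G) (h0 : ∀ x ∉ Ω, G x = 0)
    {x : V n} (hx : x ∉ Ω) : fderiv ℝ G x = 0 := by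
  have hcl : IsClosed {x : V n | fderiv ℝ G x = 0} := by
    have hc : Continuous (fderiv ℝ G) := hG.continuous_fderiv (by simp)
    exact isClosed_eq hc continuous_const
  have h1 : (closure Ω)ᶜ ⊆ {x : V n | fderiv ℝ G x = 0} := by
    intro y hy
    have h2 : G =ᶠ[nhds y] fun _ => 0 := by
      filter_upwards [isClosed_closure.isOpen_compl.mem_nhds hy] with v hv
      exact h0 v fun h => hv (subset_closure h)
    show fderiv ℝ G y = 0
    rw [h2.fderiv_eq]
    simp
  have h2 : x ∈ closure ((closure Ω)ᶜ) := by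
    rw [closure_compl, hi]
    exact hx
  exact hcl.closure_subset_iff.2 h1 h2

/-- the integral of a derivative of a function with bounded support -/
theorem integral_pd_zero {Ω : Set (V n)} (hb : Bornology.IsBounded Ω) {G : V n → ℂ}
    (hG : ContDiff ℝ ∞ G) (h0 : ∀ x ∉ Ω, G x = 0) (i : Fin n) :
    Integrable (pd i G) ∧ ∫ x, pd i G x = 0 := by
  have hcs : HasCompactSupport G := HasCompactSupport.intro hb.isCompact_closure
    fun x hx => h0 x fun h => hx (subset_closure h)
  have hcs' : HasCompactSupport (pd i G) := hcs.fderiv_apply ℝ (Pi.single i 1)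
  have hint : Integrable (pd i G) :=
    (contDiff_pd hG i).continuous.integrable_of_hasCompactSupport hcs'
  refine ⟨hint, ?_⟩
  have hintG : Integrable G := hG.continuous.integrable_of_hasCompactSupport hcs
  have h1 := integral_mul_fderiv_eq_neg_fderiv_mul_of_integrable (μ := (volume : Measure (V n)))
    (f := fun _ : V n => (1 : ℂ)) (g := G) (v := Pi.single i 1) (by simp)
    (by
      simp only [one_mul]
      exact hint) (by
      simp only [one_mul]
      exact hintG) (fun x _ => differentiableAt_const _)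
    (fun x _ => (hG.differentiable (by simp)) x)
  simp only [one_mul, fderiv_fun_const, Pi.zero_apply, zero_apply, zero_mul, integral_zero,
    neg_zero] at h1
  exact h1

/-- the linear form `ξ` -/
def lin (ξ : V n) : V n →L[ℝ] ℝ := ∑ j, ξ j • ContinuousLinearMap.proj j

theorem lin_apply (ξ x : V n) : lin ξ x = ∑ j, ξ j * x j := by
  unfold lin
  simp [ContinuousLinearMap.sum_apply]

theorem ex_eq (ξ x : V n) : ex ξ x = Complex.exp (2 * Real.pi * Complex.I * ((lin ξ x : ℝ) : ℂ)) := by
  rw [lin_apply]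
  rfl

theorem hasFDerivAt_ex (ξ x : V n) : HasFDerivAt (ex ξ)
    (ex ξ x • ((2 * Real.pi * Complex.I : ℂ) • (Complex.ofRealCLM.comp (lin ξ)))) x := by
  have h1 : HasFDerivAt (fun x : V n => ((lin ξ x : ℝ) : ℂ)) (Complex.ofRealCLM.comp (lin ξ)) x :=
    (Complex.ofRealCLM.comp (lin ξ)).hasFDerivAt
  have h2 := (h1.const_mul (2 * Real.pi * Complex.I : ℂ)).cexp
  have e : ex ξ = fun x => Complex.exp (2 * Real.pi * Complex.I * ((lin ξ x : ℝ) : ℂ)) :=
    funext fun x => ex_eq ξ x
  rw [e]
  exact h2

theorem contDiff_ex (ξ : V n) : ContDiff ℝ ∞ (ex ξ) := by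
  have e : ex ξ = fun x => Complex.exp (2 * Real.pi * Complex.I * ((lin ξ x : ℝ) : ℂ)) :=
    funext fun x => ex_eq ξ x
  rw [e]
  have h1 : ContDiff ℝ ∞ (fun x : V n => ((lin ξ x : ℝ) : ℂ)) :=
    (Complex.ofRealCLM.comp (lin ξ)).contDiff
  exact (contDiff_const.mul h1).cexp

theorem pd_ex (ξ x : V n) (i : Fin n) :
    pd i (ex ξ) x = 2 * Real.pi * Complex.I * (ξ i : ℂ) * ex ξ x := by
  unfold pd
  rw [(hasFDerivAt_ex ξ x).fderiv]
  have e : lin ξ (Pi.single i 1) = ξ i := by
    rw [lin_apply]
    simp [Pi.single_apply]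
  simp only [ContinuousLinearMap.smul_apply, ContinuousLinearMap.comp_apply, e, smul_eq_mul,
    Complex.ofRealCLM_apply]
  ring

theorem contDiff_coord (j : Fin n) : ContDiff ℝ ∞ fun x : V n => ((x j : ℝ) : ℂ) :=
  (Complex.ofRealCLM.comp (ContinuousLinearMap.proj (R := ℝ) (φ := fun _ : Fin n => ℝ) j)).contDiff

theorem pd_coord (j k : Fin n) (x : V n) :
    pd k (fun x : V n => ((x j : ℝ) : ℂ)) x = if k = j then 1 else 0 := by
  unfold pd
  have h1 : HasFDerivAt (fun x : V n => ((x j : ℝ) : ℂ))
      (Complex.ofRealCLM.comp (ContinuousLinearMap.proj (R := ℝ) (φ := fun _ : Fin n => ℝ) j)) x :=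
    (Complex.ofRealCLM.comp
      (ContinuousLinearMap.proj (R := ℝ) (φ := fun _ : Fin n => ℝ) j)).hasFDerivAt
  rw [h1.fderiv]
  simp only [ContinuousLinearMap.comp_apply, ContinuousLinearMap.proj_apply,
    Complex.ofRealCLM_apply, Pi.single_apply]
  by_cases h : j = k
  · simp [h]
  · rw [if_neg h, if_neg fun h' => h h'.symm]
    simp

section dif

variable {Ω : Set (V n)} {w K : V n → V n} (D : Dif Ω w K)

include D

theorem contDiff_W (a : Fin n) : ContDiff ℝ ∞ fun y : V n => ((y a + w y a : ℝ) : ℂ) := by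
  have h1 : ContDiff ℝ ∞ fun y : V n => y + w y := contDiff_id.add D.sw
  exact (contDiff_coord a).comp h1

theorem pd_W (a k : Fin n) (x : V n) :
    pd k (fun y : V n => ((y a + w y a : ℝ) : ℂ)) x = (jm w x a k : ℂ) := by
  have h1 := pd_comp D.sw (u := fun x : V n => ((x a : ℝ) : ℂ)) (x := x)
    ((contDiff_coord a).differentiable (by simp) _) k
  have h2 : pd k (fun y : V n => ((y a + w y a : ℝ) : ℂ)) x =
      ∑ i, (jm w x i k : ℂ) * pd i (fun x : V n => ((x a : ℝ) : ℂ)) (x + w x) := h1
  rw [h2]
  simp only [pd_coord]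
  simp

/-- **the push-forward of a tensor with harmonic coordinates is divergence free** -/
theorem ft_push (hΩ : IsOpen Ω) (hb : Bornology.IsBounded Ω) (hi : interior (closure Ω) = Ω)
    {s : MF n} (hs : SmM s) (h1 : ∀ x ∉ Ω, s x = 1)
    (hdv : ∀ a x, dv s (fun y => ((y a + w y a : ℝ) : ℂ)) x = 0) (ξ : V n) (j : Fin n) :
    ∑ i, (ξ i : ℂ) * ft (ent (psh s w K) i j) ξ = 0 := by
  set φ : V n → ℂ := ex (-ξ) with hφ
  set Wj : V n → ℂ := fun y => ((y j + w y j : ℝ) : ℂ) with hW
  set F : Fin n → V n → ℂ := fun i y => ∑ k, (s y i k : ℂ) * pd k Wj y with hF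
  set ψ : V n → ℂ := fun x => φ (x + w x) with hψ
  have hψs : ContDiff ℝ ∞ ψ := (contDiff_ex (-ξ)).comp (contDiff_id.add D.sw)
  have hφs : ContDiff ℝ ∞ φ := contDiff_ex (-ξ)
  have hFs : ∀ i, ContDiff ℝ ∞ (F i) := by
    intro i
    refine ContDiff.sum fun k _ => ?_
    exact (Complex.ofRealCLM.contDiff.comp (hs i k)).mul (contDiff_pd (contDiff_W D j) k)
  -- the compactly supported field
  set G : Fin n → V n → ℂ := fun i x => ψ x * F i x - (if i = j then 1 else 0) * φ x with hG
  have hGs : ∀ i, ContDiff ℝ ∞ (G i) := fun i =>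
    (hψs.mul (hFs i)).sub (contDiff_const.mul hφs)
  have hFoff : ∀ i, ∀ x ∉ Ω, F i x = if i = j then 1 else 0 := by
    intro i x hx
    rw [hF]
    simp only [hW, pd_W D, jm_off D hi hx, h1 x hx, Matrix.one_apply]
    rw [Finset.sum_eq_single j]
    · by_cases hij : i = j <;> simp [hij]
    · intro k _ hk
      rw [if_neg fun h : j = k => hk h.symm]
      simp
    · simp
  have hG0 : ∀ i, ∀ x ∉ Ω, G i x = 0 := by
    intro i x hx
    rw [hG]
    simp only [hFoff i x hx, hψ, D.z x hx, add_zero]
    ring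
  -- divergence of `G`
  have hdiv : ∀ x, ∑ i, pd i (G i) x = (∑ i, pd i ψ x * F i x) - pd j φ x := by
    intro x
    have e1 : ∀ i, pd i (G i) x = pd i ψ x * F i x + ψ x * pd i (F i) x -
        (if i = j then 1 else 0) * pd i φ x := by
      intro i
      have d1 : DifferentiableAt ℝ ψ x := hψs.differentiable (by simp) x
      have d2 : DifferentiableAt ℝ (F i) x := (hFs i).differentiable (by simp) x
      have d3 : DifferentiableAt ℝ φ x := hφs.differentiable (by simp) x
      have h2 := ((d1.hasFDerivAt.mul d2.hasFDerivAt).sub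
        (d3.hasFDerivAt.const_mul (if i = j then (1 : ℂ) else 0))).fderiv
      unfold pd
      have e : G i = fun x => ψ x * F i x - (if i = j then 1 else 0) * φ x := rfl
      rw [e]
      have h3 := congrArg (fun L : V n →L[ℝ] ℂ => L (Pi.single i 1)) h2
      refine Eq.trans h3 ?_
      simp only [ContinuousLinearMap.sub_apply, ContinuousLinearMap.add_apply,
        ContinuousLinearMap.smul_apply, smul_eq_mul]
      ring
    simp only [e1, Finset.sum_sub_distrib, Finset.sum_add_distrib, ← Finset.mul_sum]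
    have e2 : ∑ i, pd i (F i) x = 0 := hdv j x
    rw [e2]
    simp
  have hint0 : ∫ x, ∑ i, pd i (G i) x = 0 := by
    rw [integral_finsetSum _ fun i _ => (integral_pd_zero hb (hGs i) (hG0 i) i).1]
    exact Finset.sum_eq_zero fun i _ => (integral_pd_zero hb (hGs i) (hG0 i) i).2
  have hoff : ∀ x ∉ Ω, ∑ i, pd i (G i) x = 0 := by
    intro x hx
    refine Finset.sum_eq_zero fun i _ => ?_
    unfold pd
    rw [fderiv_zero_off hi (hGs i) (hG0 i) hx]
    simp
  have hint1 : ∫ x in Ω, ((∑ i, pd i ψ x * F i x) - pd j φ x) = 0 := by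
    have h2 := setIntegral_eq_integral_of_forall_compl_eq_zero (μ := (volume : Measure (V n)))
      (s := Ω) (f := fun x => ∑ i, pd i (G i) x) hoff
    rw [hint0] at h2
    rw [← h2]
    exact setIntegral_congr_fun hΩ.measurableSet fun x _ => (hdiv x).symm
  have hio : ∀ f : V n → ℂ, Continuous f → IntegrableOn f Ω := fun f hf =>
    (hf.continuousOn.integrableOn_compact hb.isCompact_closure).mono_set subset_closure
  have hc1 : Continuous fun x => ∑ i, pd i ψ x * F i x :=
    continuous_finsetSum _ fun i _ => (contDiff_pd hψs i).continuous.mul (hFs i).continuous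
  have hc2 : Continuous fun x => pd j φ x := (contDiff_pd hφs j).continuous
  rw [integral_sub (hio _ hc1) (hio _ hc2), sub_eq_zero] at hint1
  -- the change of variables
  have hbl : bl Ω (psh s w K) φ (fun x : V n => ((x j : ℝ) : ℂ)) =
      ∫ x in Ω, ∑ i, pd i ψ x * F i x := by
    rw [bl_push D hΩ s (hφs.differentiable (by simp))
      ((contDiff_coord j).differentiable (by simp))]
    unfold bl
    refine setIntegral_congr_fun hΩ.measurableSet fun x _ => ?_
    refine Finset.sum_congr rfl fun i _ => ?_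
    rw [hF]
    simp only [Finset.mul_sum]
    refine Finset.sum_congr rfl fun k _ => ?_
    show (s x i k : ℂ) * pd i ψ x * pd k Wj x = pd i ψ x * ((s x i k : ℂ) * pd k Wj x)
    ring
  have hbl2 : bl Ω (psh s w K) φ (fun x : V n => ((x j : ℝ) : ℂ)) =
      ∫ x in Ω, ∑ i, (psh s w K x i j : ℂ) * pd i φ x := by
    unfold bl
    refine setIntegral_congr_fun hΩ.measurableSet fun x _ => ?_
    refine Finset.sum_congr rfl fun i _ => ?_
    simp only [pd_coord]
    rw [Finset.sum_eq_single j]
    · simp
    · intro k _ hk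
      rw [if_neg hk, mul_zero]
    · simp
  have hps := smM_psh D hs
  have hc3 : Continuous fun x => ∑ i, (psh s w K x i j : ℂ) * pd i φ x :=
    continuous_finsetSum _ fun i _ =>
      (Complex.continuous_ofReal.comp (hps i j).continuous).mul (contDiff_pd hφs i).continuous
  have hkey : ∫ x in Ω, ∑ i, ent (psh s w K) i j x * pd i φ x = 0 := by
    have e : ∀ x, ∑ i, ent (psh s w K) i j x * pd i φ x =
        (∑ i, (psh s w K x i j : ℂ) * pd i φ x) - pd j φ x := by
      intro x
      have e2 : ∀ i, ent (psh s w K) i j x * pd i φ x =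
          (psh s w K x i j : ℂ) * pd i φ x - (if i = j then 1 else 0) * pd i φ x := by
        intro i
        unfold ent
        rw [Matrix.one_apply]
        push_cast
        rw [sub_mul]
        congr 2
        split_ifs <;> simp
      simp only [e2, Finset.sum_sub_distrib]
      congr 1
      simp
    simp only [e]
    rw [integral_sub (hio _ hc3) (hio _ hc2), ← hbl2, hbl, hint1, sub_self]
  have hkey2 : ∫ x, ∑ i, ent (psh s w K) i j x * pd i φ x = 0 := by
    rw [← hkey]
    refine (setIntegral_eq_integral_of_forall_compl_eq_zero fun x hx => ?_).symm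
    refine Finset.sum_eq_zero fun i _ => ?_
    unfold ent
    rw [psh_off D hi h1 hx]
    simp
  -- the Fourier transform
  have hentc : ∀ i, Continuous (ent (psh s w K) i j) := by
    intro i
    unfold ent
    exact Complex.continuous_ofReal.comp ((hps i j).continuous.sub continuous_const)
  have hentcs : ∀ i, HasCompactSupport (ent (psh s w K) i j) := by
    intro i
    refine HasCompactSupport.intro hb.isCompact_closure fun x hx => ?_
    unfold ent
    rw [psh_off D hi h1 fun h => hx (subset_closure h)]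
    simp
  have hintE : ∀ i, Integrable fun x => ent (psh s w K) i j x * φ x := by
    intro i
    exact ((hentc i).mul hφs.continuous).integrable_of_hasCompactSupport (hentcs i).mul_right
  have hfin : (-(2 * Real.pi * Complex.I) : ℂ) * ∑ i, (ξ i : ℂ) * ft (ent (psh s w K) i j) ξ = 0 := by
    rw [← hkey2, Finset.mul_sum]
    have e3 : ∀ x, ∑ i, ent (psh s w K) i j x * pd i φ x =
        ∑ i, (-(2 * Real.pi * Complex.I) * (ξ i : ℂ)) * (ent (psh s w K) i j x * φ x) := by
      intro x
      refine Finset.sum_congr rfl fun i _ => ?_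
      rw [hφ, pd_ex]
      simp only [Pi.neg_apply]
      push_cast
      ring
    simp only [e3]
    rw [integral_finsetSum _ fun i _ => (hintE i).const_mul _]
    refine Finset.sum_congr rfl fun i _ => ?_
    rw [integral_const_mul]
    exact (mul_assoc _ _ _).symm
  have hne : (-(2 * Real.pi * Complex.I) : ℂ) ≠ 0 := by
    simp [Real.pi_ne_zero]
  exact (mul_eq_zero.1 hfin).resolve_left hne

end dif

/-- **Row PUSH.** -/
theorem rowPUSH : RowPUSH := by
  intro n Ω hΩ hb hi s hs hsym h1 w K D
  exact ⟨smM_psh D hs, isSymm_psh D hsym, fun x hx => psh_off D hi h1 hx, SD_push D hΩ,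
    fun hdv ξ j => ft_push D hΩ hb hi hs h1 hdv ξ j⟩

end Vale.Agent.P088.LR.H158
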