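import Vale.Agent.P088.H198.Defs

/-!
# P088, row PUSH, first part: the change of variables in the form `bl`
-/

open MeasureTheory Set
open scoped ContDiff Matrix

noncomputable section

namespace Vale.Agent.P088.LR.H158

open Vale.Agent.P088.LR

variable {n : ℕ}

/-! ### smoothness -/

theorem contDiff_pd {F : Type*} [NormedAddCommGroup F] [NormedSpace ℝ F] {f : V n → F}
    (hf : ContDiff ℝ ∞ f) (i : Fin n) : ContDiff ℝ ∞ (pd i f) := by
  have h1 : ContDiff ℝ ∞ (fderiv ℝ f) := hf.fderiv_right (m := ∞) (by simp)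
  exact h1.clm_apply contDiff_const

theorem contDiff_jm {w : V n → V n} (hw : ContDiff ℝ ∞ w) : SmM (jm w) := by
  intro i j
  have h1 := contDiff_pd hw j
  have h2 : ContDiff ℝ ∞ fun x => pd j w x i := (contDiff_pi.1 h1) i
  exact contDiff_const.add h2

theorem smM_mul {s t : MF n} (hs : SmM s) (ht : SmM t) : SmM (fun x => s x * t x) := by
  intro i j
  simp only [Matrix.mul_apply]
  exact ContDiff.sum fun k _ => (hs i k).mul (ht k j)

theorem smM_transpose {s : MF n} (hs : SmM s) : SmM (fun x => (s x)ᵀ) := by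
  intro i j
  simp only [Matrix.transpose_apply]
  exact hs j i

theorem smM_det {s : MF n} (hs : SmM s) : ContDiff ℝ ∞ fun x => (s x).det := by
  simp only [Matrix.det_apply']
  exact ContDiff.sum fun σ _ => contDiff_const.mul (contDiff_prod fun i _ => hs _ _)

theorem smM_comp {s : MF n} (hs : SmM s) {K : V n → V n} (hK : ContDiff ℝ ∞ K) :
    SmM (fun x => s (K x)) := fun i j => (hs i j).comp hK

theorem smM_smul {s : MF n} (hs : SmM s) {f : V n → ℝ} (hf : ContDiff ℝ ∞ f) :
    SmM (fun x => f x • s x) := by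
  intro i j
  simp only [Matrix.smul_apply, smul_eq_mul]
  exact hf.mul (hs i j)

section dif

variable {Ω : Set (V n)} {w K : V n → V n} (D : Dif Ω w K)

include D

theorem smM_psh {s : MF n} (hs : SmM s) : SmM (psh s w K) := by
  have h1 : SmM fun y => jm w (K y) := smM_comp (contDiff_jm D.sw) D.sK
  have h2 : SmM fun y => s (K y) := smM_comp hs D.sK
  have h3 : ContDiff ℝ ∞ fun y => (jm w (K y)).det⁻¹ :=
    (smM_det h1).inv fun y => (D.dp (K y)).ne'
  exact smM_smul (smM_mul (smM_mul h1 h2) (smM_transpose h1)) h3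

theorem isSymm_psh {s : MF n} (hs : ∀ x, (s x).IsSymm) (x : V n) : (psh s w K x).IsSymm := by
  unfold psh
  refine Matrix.IsSymm.smul ?_ _
  unfold Matrix.IsSymm
  rw [Matrix.transpose_mul, Matrix.transpose_mul, Matrix.transpose_transpose, hs (K x),
    Matrix.mul_assoc]

theorem K_off {x : V n} (hx : x ∉ Ω) : K x = x := by
  have h1 := D.l x
  rwa [D.z x hx, add_zero] at h1

theorem H_mem {x : V n} (hx : x ∈ Ω) : x + w x ∈ Ω := by
  by_contra hcon
  have h1 := K_off D hcon
  rw [D.l] at h1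
  exact hcon (h1 ▸ hx)

theorem K_mem {y : V n} (hy : y ∈ Ω) : K y ∈ Ω := by
  by_contra hcon
  have h1 := D.r y
  rw [D.z _ hcon, add_zero] at h1
  exact hcon (by rw [h1]; exact hy)

theorem H_image : (fun x => x + w x) '' Ω = Ω := by
  ext y
  constructor
  · rintro ⟨x, hx, rfl⟩
    exact H_mem D hx
  · intro hy
    exact ⟨K y, K_mem D hy, D.r y⟩

theorem H_inj : Function.Injective fun x => x + w x := by
  intro x y h
  have h1 := congrArg K h
  simp only [D.l] at h1
  exact h1

theorem fderiv_off (hi : interior (closure Ω) = Ω) {x : V n} (hx : x ∉ Ω) : fderiv ℝ w x = 0 := by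
  have hcl : IsClosed {x : V n | fderiv ℝ w x = 0} := by
    have hc : Continuous (fderiv ℝ w) := D.sw.continuous_fderiv (by simp)
    exact isClosed_eq hc continuous_const
  have h1 : (closure Ω)ᶜ ⊆ {x : V n | fderiv ℝ w x = 0} := by
    intro y hy
    have h2 : w =ᶠ[nhds y] fun _ => 0 := by
      filter_upwards [isClosed_closure.isOpen_compl.mem_nhds hy] with v hv
      exact D.z v fun h => hv (subset_closure h)
    show fderiv ℝ w y = 0
    rw [h2.fderiv_eq]
    simp
  have h2 : x ∈ closure ((closure Ω)ᶜ) := by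
    rw [closure_compl, hi]
    exact hx
  exact hcl.closure_subset_iff.2 h1 h2

theorem jm_off (hi : interior (closure Ω) = Ω) {x : V n} (hx : x ∉ Ω) : jm w x = 1 := by
  ext i j
  unfold jm pd
  rw [fderiv_off D hi hx]
  simp

theorem psh_off (hi : interior (closure Ω) = Ω) {s : MF n} (h1 : ∀ x ∉ Ω, s x = 1) {x : V n}
    (hx : x ∉ Ω) : psh s w K x = 1 := by
  unfold psh
  rw [K_off D hx, jm_off D hi hx, h1 x hx]
  simp

end dif

/-! ### the derivative of `id + w` -/

theorem vec_eq (v : V n) : v = ∑ i, v i • (Pi.single i (1 : ℝ) : V n) := by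
  ext j
  simp [Finset.sum_apply, Pi.single_apply]

theorem hasFDerivAt_H {w : V n → V n} (hw : ContDiff ℝ ∞ w) (x : V n) :
    HasFDerivAt (fun x => x + w x) (ContinuousLinearMap.id ℝ (V n) + fderiv ℝ w x) x :=
  (hasFDerivAt_id x).add ((hw.differentiable (by simp)) x).hasFDerivAt

theorem H_apply (w : V n → V n) (x : V n) (i j : Fin n) :
    ((ContinuousLinearMap.id ℝ (V n) + fderiv ℝ w x) (Pi.single j 1)) i = jm w x i j := by
  unfold jm pd
  simp [Matrix.one_apply, Pi.single_apply]

theorem det_H (w : V n → V n) (x : V n) :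
    (ContinuousLinearMap.id ℝ (V n) + fderiv ℝ w x).det = (jm w x).det := by
  unfold ContinuousLinearMap.det
  rw [← LinearMap.det_toMatrix']
  congr 1
  ext i j
  rw [LinearMap.toMatrix'_apply, ← H_apply w x i j]
  rfl

/-- chain rule -/
theorem pd_comp {w : V n → V n} (hw : ContDiff ℝ ∞ w) {u : V n → ℂ} {x : V n}
    (hu : DifferentiableAt ℝ u (x + w x)) (a : Fin n) :
    pd a (fun x => u (x + w x)) x = ∑ i, (jm w x i a : ℂ) * pd i u (x + w x) := by
  have h1 : HasFDerivAt (fun x => u (x + w x))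
      ((fderiv ℝ u (x + w x)).comp (ContinuousLinearMap.id ℝ (V n) + fderiv ℝ w x)) x :=
    HasFDerivAt.comp x (f := fun x => x + w x) hu.hasFDerivAt (hasFDerivAt_H hw x)
  unfold pd
  rw [h1.fderiv, ContinuousLinearMap.comp_apply]
  conv_lhs => rw [vec_eq ((ContinuousLinearMap.id ℝ (V n) + fderiv ℝ w x) (Pi.single a 1))]
  rw [map_sum]
  refine Finset.sum_congr rfl fun i _ => ?_
  rw [map_smul, H_apply, Complex.real_smul]

/-- the algebraic identity -/
theorem alg_id (J s : Matrix (Fin n) (Fin n) ℝ) (p q : Fin n → ℂ) :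
    ∑ i, ∑ j, (((J * s * Jᵀ) i j : ℝ) : ℂ) * p i * q j =
      ∑ a, ∑ b, (s a b : ℂ) * (∑ i, (J i a : ℂ) * p i) * ∑ j, (J j b : ℂ) * q j := by
  have h1 : ∀ i j, (((J * s * Jᵀ) i j : ℝ) : ℂ) = ∑ a, ∑ b, (J i a : ℂ) * s a b * J j b := by
    intro i j
    rw [Matrix.mul_apply]
    simp only [Matrix.mul_apply, Matrix.transpose_apply, Finset.sum_mul]
    rw [Finset.sum_comm]
    push_cast
    rfl
  calc ∑ i, ∑ j, (((J * s * Jᵀ) i j : ℝ) : ℂ) * p i * q j
      = ∑ i, ∑ j, ∑ a, ∑ b, (J i a : ℂ) * s a b * J j b * p i * q j := by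
        refine Finset.sum_congr rfl fun i _ => Finset.sum_congr rfl fun j _ => ?_
        rw [h1]
        simp only [Finset.sum_mul]
    _ = ∑ i, ∑ a, ∑ j, ∑ b, (J i a : ℂ) * s a b * J j b * p i * q j := by
        refine Finset.sum_congr rfl fun i _ => ?_
        rw [Finset.sum_comm]
    _ = ∑ a, ∑ i, ∑ b, ∑ j, (J i a : ℂ) * s a b * J j b * p i * q j := by
        rw [Finset.sum_comm]
        refine Finset.sum_congr rfl fun a _ => Finset.sum_congr rfl fun i _ => ?_
        rw [Finset.sum_comm]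
    _ = ∑ a, ∑ b, ∑ i, ∑ j, (J i a : ℂ) * s a b * J j b * p i * q j := by
        refine Finset.sum_congr rfl fun a _ => ?_
        rw [Finset.sum_comm]
    _ = _ := by
        refine Finset.sum_congr rfl fun a _ => Finset.sum_congr rfl fun b _ => ?_
        rw [mul_assoc, Finset.sum_mul_sum, Finset.mul_sum]
        refine Finset.sum_congr rfl fun i _ => ?_
        rw [Finset.mul_sum]
        refine Finset.sum_congr rfl fun j _ => ?_
        ring

section dif2

variable {Ω : Set (V n)} {w K : V n → V n} (D : Dif Ω w K)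

include D

/-- **change of variables** -/
theorem bl_push (hΩ : IsOpen Ω) (s : MF n) {u v : V n → ℂ} (hu : Differentiable ℝ u)
    (hv : Differentiable ℝ v) :
    bl Ω (psh s w K) u v = bl Ω s (fun x => u (x + w x)) (fun x => v (x + w x)) := by
  unfold bl
  have h1 := integral_image_eq_integral_abs_det_fderiv_smul (volume : Measure (V n))
    hΩ.measurableSet (f := fun x => x + w x)
    (f' := fun x => ContinuousLinearMap.id ℝ (V n) + fderiv ℝ w x)
    (fun x _ => (hasFDerivAt_H D.sw x).hasFDerivWithinAt) ((H_inj D).injOn)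
    (fun y => ∑ i, ∑ j, (psh s w K y i j : ℂ) * pd i u y * pd j v y)
  rw [H_image D] at h1
  rw [h1]
  refine setIntegral_congr_fun hΩ.measurableSet fun x _ => ?_
  show |(ContinuousLinearMap.id ℝ (V n) + fderiv ℝ w x).det| •
    (∑ i, ∑ j, (psh s w K (x + w x) i j : ℂ) * pd i u (x + w x) * pd j v (x + w x)) =
    ∑ a, ∑ b, (s x a b : ℂ) * pd a (fun x => u (x + w x)) x * pd b (fun x => v (x + w x)) x
  rw [det_H, abs_of_pos (D.dp x)]
  have e1 : ∀ i j, psh s w K (x + w x) i j = (jm w x).det⁻¹ * (jm w x * s x * (jm w x)ᵀ) i j := by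
    intro i j
    unfold psh
    rw [D.l, Matrix.smul_apply, smul_eq_mul]
  have hd : ((jm w x).det : ℂ) ≠ 0 := by
    exact_mod_cast (D.dp x).ne'
  have e2 : (jm w x).det • ∑ i, ∑ j, (psh s w K (x + w x) i j : ℂ) * pd i u (x + w x) *
      pd j v (x + w x) = ∑ i, ∑ j, (((jm w x * s x * (jm w x)ᵀ) i j : ℝ) : ℂ) *
      pd i u (x + w x) * pd j v (x + w x) := by
    rw [Finset.smul_sum]
    refine Finset.sum_congr rfl fun i _ => ?_
    rw [Finset.smul_sum]
    refine Finset.sum_congr rfl fun j _ => ?_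
    rw [e1, Complex.real_smul]
    push_cast
    field_simp
  rw [e2, alg_id]
  refine Finset.sum_congr rfl fun a _ => Finset.sum_congr rfl fun b _ => ?_
  rw [pd_comp D.sw (hu _) a, pd_comp D.sw (hv _) b]

theorem frontier_off (hΩ : IsOpen Ω) {x : V n} (hx : x ∈ frontier Ω) : x ∉ Ω := by
  intro h
  rw [hΩ.frontier_eq] at hx
  exact hx.2 h

/-- solutions are transported -/
theorem Hm_push (hΩ : IsOpen Ω) {s : MF n} {f u : V n → ℂ} (h : Hm Ω s f u) :
    Hm Ω (psh s w K) f (fun y => u (K y)) := by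
  obtain ⟨h1, h2, h3⟩ := h
  refine ⟨h1.comp D.sK, fun x hx => ?_, fun φ hφ hφ0 => ?_⟩
  · show u (K x) = f x
    rw [K_off D (frontier_off D hΩ hx)]
    exact h2 x hx
  · have hu : Differentiable ℝ fun y => u (K y) := (h1.comp D.sK).differentiable (by simp)
    rw [bl_push D hΩ s hu (hφ.differentiable (by simp))]
    simp only [D.l]
    refine h3 (fun x => φ (x + w x)) (hφ.comp (contDiff_id.add D.sw)) fun x hx => ?_
    rw [D.z x (frontier_off D hΩ hx), add_zero]
    exact hφ0 x hx

theorem SD_push (hΩ : IsOpen Ω) {s : MF n} (h : SD Ω (fun _ => 1) s) :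
    SD Ω (fun _ => 1) (psh s w K) := by
  intro f g hf hg
  obtain ⟨u, v, u', v', h1, h2, h3, h4, h5⟩ := h f g hf hg
  refine ⟨u, v, fun y => u' (K y), fun y => v' (K y), h1, h2, Hm_push D hΩ h3, Hm_push D hΩ h4, ?_⟩
  have hu : Differentiable ℝ fun y => u' (K y) := (h3.1.comp D.sK).differentiable (by simp)
  have hv : Differentiable ℝ fun y => v' (K y) := (h4.1.comp D.sK).differentiable (by simp)
  rw [bl_push D hΩ s hu hv, h5]
  simp only [D.l]

end dif2

end Vale.Agent.P088.LR.H158
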