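import Vale.Agent.P088.H72.B.Defs
import Vale.Agent.P088.H158.PushA
import Vale.Agent.P088.H757.Weak

/-!
# P088, stage 2, row MAP: transport by `x ↦ x + w x`, `w = 0` on the boundary
-/

open MeasureTheory Set
open scoped ContDiff Matrix

noncomputable section

namespace Vale.Agent.P088.LR.B.H158

open Vale.Agent.P088.LR Vale.Agent.P088.LR.B Vale.Agent.P088.LR.H158

variable {n : ℕ}

/-! ### the sides -/

theorem lip_half {w : V n → V n} (hw : ContDiff ℝ ∞ w) (hc : Cl 1 (1 / 2) w) (x y : V n) :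
    ‖w x - w y‖ ≤ 1 / 2 * ‖x - y‖ := by
  refine Convex.norm_image_sub_le_of_norm_fderiv_le (s := univ) (𝕜 := ℝ)
    (fun z _ => (hw.differentiable (by simp)) z) (fun z _ => ?_) convex_univ (mem_univ y)
    (mem_univ x)
  rw [← norm_iteratedFDeriv_one]
  exact hc 1 le_rfl z

theorem norm_half {w : V n → V n} (hc : Cl 1 (1 / 2) w) (x : V n) : ‖w x‖ ≤ 1 / 2 := by
  have h := hc 0 (by norm_num) x
  rwa [norm_iteratedFDeriv_zero] at h

section side

variable {ρ : V n → ℝ} {w : V n → V n} (hρ : Continuous ρ) (hw : ContDiff ℝ ∞ w)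
  (hz : ∀ x, ρ x = 0 → w x = 0) (hc : Cl 1 (1 / 2) w)

include hw hz hc

/-- the segment from `x` to `x + w x` meets `{ρ = 0}` only if `w x = 0` -/
theorem no_cross {x : V n} {t : ℝ} (ht0 : 0 ≤ t) (ht1 : t ≤ 1) (h0 : ρ (x + t • w x) = 0) :
    w x = 0 := by
  have h1 := lip_half hw hc x (x + t • w x)
  rw [hz _ h0, sub_zero] at h1
  have e : x - (x + t • w x) = -(t • w x) := by abel
  rw [e, norm_neg, norm_smul, Real.norm_of_nonneg ht0] at h1
  have h2 : ‖w x‖ ≤ 1 / 2 * ‖w x‖ := by
    refine h1.trans ?_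
    have h3 := norm_nonneg (w x)
    nlinarith
  have h3 := norm_nonneg (w x)
  exact norm_eq_zero.1 (by linarith)

theorem rho_zero {x : V n} : ρ (x + w x) = 0 ↔ ρ x = 0 := by
  constructor
  · intro h
    have h1 : w x = 0 := no_cross hw hz hc (t := 1) zero_le_one le_rfl (by rwa [one_smul])
    rwa [h1, add_zero] at h
  · intro h
    rwa [hz x h, add_zero]

include hρ

theorem rho_same {x : V n} (h : 0 ∈ uIcc (ρ x) (ρ (x + w x))) : w x = 0 := by
  have hcont : Continuous fun t : ℝ => ρ (x + t • w x) := by fun_prop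
  have h1 := intermediate_value_uIcc (a := (0 : ℝ)) (b := 1) hcont.continuousOn
  simp only [zero_smul, add_zero, one_smul] at h1
  obtain ⟨t, ht, h2⟩ := h1 h
  rw [uIcc_of_le zero_le_one] at ht
  exact no_cross hw hz hc ht.1 ht.2 h2

theorem rho_pos {x : V n} : 0 < ρ (x + w x) ↔ 0 < ρ x := by
  constructor
  · intro h
    by_contra hcon
    push Not at hcon
    have h1 : w x = 0 := rho_same hρ hw hz hc (by
      rw [uIcc_of_le (by linarith)]
      exact ⟨hcon, h.le⟩)
    rw [h1, add_zero] at h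
    linarith
  · intro h
    by_contra hcon
    push Not at hcon
    have h1 : w x = 0 := rho_same hρ hw hz hc (by
      rw [uIcc_of_ge (by linarith)]
      exact ⟨hcon, h.le⟩)
    rw [h1, add_zero] at hcon
    linarith

end side

/-! ### domains -/

theorem core_eq : core n = Icc (fun _ => 1 / 4) (fun _ => 3 / 4) := by
  ext x
  simp only [core, mem_ofPred_eq, mem_Icc, Pi.le_def]
  exact ⟨fun h => ⟨fun i => (h i).1, fun i => (h i).2⟩, fun h i => ⟨h.1 i, h.2 i⟩⟩

theorem isCompact_core : IsCompact (core n) := by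
  rw [core_eq]
  exact isCompact_Icc

section dom

variable {ρ : V n → ℝ} (d : Dom ρ)

include d

theorem isOpen_Om : IsOpen (Om ρ) := isOpen_lt continuous_const d.sm.continuous

theorem Om_core : Om ρ ⊆ core n := by
  intro x hx
  by_contra hcon
  have h1 : 0 < ρ x := hx
  rw [d.off x hcon] at h1
  linarith

theorem bounded_Om : Bornology.IsBounded (Om ρ) := isCompact_core.isBounded.subset (Om_core d)

theorem frontier_zero {x : V n} (hx : x ∈ frontier (Om ρ)) : ρ x = 0 := by
  have h1 := frontier_lt_subset_eq (continuous_const (y := (0 : ℝ))) d.sm.continuous hx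
  exact (show (0 : ℝ) = ρ x from h1).symm

theorem integ {f : V n → ℝ} (hf : Continuous f) : IntegrableOn f (Om ρ) :=
  (hf.continuousOn.integrableOn_compact isCompact_core).mono_set (Om_core d)

/-- distance of the levels -/
theorem exists_level {w : V n → V n} (hw : ContDiff ℝ ∞ w) (hz : ∀ x, ρ x = 0 → w x = 0)
    (hc : Cl 1 (1 / 2) w) {r : ℝ} (hr : 0 < r) :
    ∃ r' > 0, ∀ x, r ≤ |ρ x| → r' ≤ |ρ (x + w x)| := by
  set S : Set (V n) := Icc (fun _ => (-1 : ℝ)) (fun _ => (2 : ℝ)) ∩ {x | r ≤ |ρ x|} with hS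
  have hSc : IsCompact S := isCompact_Icc.inter_right (isClosed_le continuous_const
    d.sm.continuous.abs)
  have hcont : Continuous fun x => |ρ (x + w x)| :=
    (d.sm.continuous.comp (continuous_id.add hw.continuous)).abs
  obtain ⟨a, ha, hS'⟩ := hSc.exists_forall_le' hcont.continuousOn (a := 0) (by
    rintro x ⟨-, hx⟩
    have hx' : r ≤ |ρ x| := hx
    refine abs_pos.2 fun h => ?_
    rw [(rho_zero hw hz hc).1 h, abs_zero] at hx'
    linarith)
  refine ⟨min a 1, lt_min ha one_pos, fun x hx => ?_⟩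
  by_cases hxS : x ∈ Icc (fun _ => (-1 : ℝ)) (fun _ => (2 : ℝ))
  · exact (min_le_left _ _).trans (hS' x ⟨hxS, hx⟩)
  · have h1 : x + w x ∉ core n := by
      intro hcore
      refine hxS ⟨fun i => ?_, fun i => ?_⟩
      · have h2 := hcore i
        have h3 := (norm_le_pi_norm (w x) i).trans (norm_half hc x)
        rw [Real.norm_eq_abs, abs_le] at h3
        simp only [Pi.add_apply] at h2
        show (-1 : ℝ) ≤ x i
        linarith [h2.1, h3.2]
      · have h2 := hcore i
        have h3 := (norm_le_pi_norm (w x) i).trans (norm_half hc x)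
        rw [Real.norm_eq_abs, abs_le] at h3
        simp only [Pi.add_apply] at h2
        show x i ≤ (2 : ℝ)
        linarith [h2.2, h3.1]
    rw [d.off _ h1]
    refine (min_le_right _ _).trans ?_
    norm_num

end dom

/-! ### change of variables over a set mapped onto itself -/

section dif

variable {Ω O : Set (V n)} {w K : V n → V n} (D : Dif Ω w K)

include D

/-- **change of variables** over a set mapped onto itself -/
theorem bl_pushO (hO : IsOpen O) (himg : (fun x => x + w x) '' O = O) (s : MF n)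
    {u v : V n → ℂ} (hu : Differentiable ℝ u) (hv : Differentiable ℝ v) :
    bl O (psh s w K) u v = bl O s (fun x => u (x + w x)) (fun x => v (x + w x)) := by
  unfold bl
  have h1 := integral_image_eq_integral_abs_det_fderiv_smul (volume : Measure (V n))
    hO.measurableSet (f := fun x => x + w x)
    (f' := fun x => ContinuousLinearMap.id ℝ (V n) + fderiv ℝ w x)
    (fun x _ => (hasFDerivAt_H D.sw x).hasFDerivWithinAt) ((H_inj D).injOn)
    (fun y => ∑ i, ∑ j, (psh s w K y i j : ℂ) * pd i u y * pd j v y)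
  rw [himg] at h1
  rw [h1]
  refine setIntegral_congr_fun hO.measurableSet fun x _ => ?_
  show |(ContinuousLinearMap.id ℝ (V n) + fderiv ℝ w x).det| •
    (∑ i, ∑ j, (psh s w K (x + w x) i j : ℂ) * pd i u (x + w x) * pd j v (x + w x)) =
    ∑ a, ∑ b, (s x a b : ℂ) * pd a (fun x => u (x + w x)) x * pd b (fun x => v (x + w x)) x
  rw [det_H, abs_of_pos (D.dp x)]
  have e1 : ∀ i j, psh s w K (x + w x) i j = (jm w x).det⁻¹ * (jm w x * s x * (jm w x)ᵀ) i j := by
    intro i j
    unfold psh
    rw [D.l, Matrix.smul_apply, smul_eq_mul]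
  have hd : ((jm w x).det : ℂ) ≠ 0 := by
    exact_mod_cast (D.dp x).ne'
  have e2 : (jm w x).det • ∑ i, ∑ j, (psh s w K (x + w x) i j : ℂ) * pd i u (x + w x) *
      pd j v (x + w x) = ∑ i, ∑ j, (((jm w x * s x * (jm w x)ᵀ) i j : ℝ) : ℂ) *
      pd i u (x + w x) * pd j v (x + w x) := by
    rw [Finset.smul_sum]
    refine Finset.sum_congr rfl fun i _ => ?_
    rw [Finset.smul_sum]
    refine Finset.sum_congr rfl fun j _ => ?_
    rw [e1, Complex.real_smul]
    push_cast
    field_simp
  rw [e2, alg_id]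
  refine Finset.sum_congr rfl fun a _ => Finset.sum_congr rfl fun b _ => ?_
  rw [pd_comp D.sw (hu _) a, pd_comp D.sw (hv _) b]

variable (hO : IsOpen O) (himg : (fun x => x + w x) '' O = O) (hf : ∀ x ∈ frontier O, w x = 0)

include hO himg hf

/-- solutions are transported -/
theorem Hm_pushO {s : MF n} {f u : V n → ℂ} (h : Hm O s f u) :
    Hm O (psh s w K) f (fun y => u (K y)) := by
  obtain ⟨h1, h2, h3⟩ := h
  refine ⟨h1.comp D.sK, fun x hx => ?_, fun φ hφ hφ0 => ?_⟩
  · have h4 := D.l x
    rw [hf x hx, add_zero] at h4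
    show u (K x) = f x
    rw [h4]
    exact h2 x hx
  · have hu : Differentiable ℝ fun y => u (K y) := (h1.comp D.sK).differentiable (by simp)
    rw [bl_pushO D hO himg s hu (hφ.differentiable (by simp))]
    simp only [D.l]
    refine h3 (fun x => φ (x + w x)) (hφ.comp (contDiff_id.add D.sw)) fun x hx => ?_
    rw [hf x hx, add_zero]
    exact hφ0 x hx

theorem SD_pushO {s : MF n} (h : SD O (fun _ => 1) s) : SD O (fun _ => 1) (psh s w K) := by
  intro f g hf' hg
  obtain ⟨u, v, u', v', h1, h2, h3, h4, h5⟩ := h f g hf' hg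
  refine ⟨u, v, fun y => u' (K y), fun y => v' (K y), h1, h2, Hm_pushO D hO himg hf h3,
    Hm_pushO D hO himg hf h4, ?_⟩
  have hu : Differentiable ℝ fun y => u' (K y) := (h3.1.comp D.sK).differentiable (by simp)
  have hv : Differentiable ℝ fun y => v' (K y) := (h4.1.comp D.sK).differentiable (by simp)
  rw [bl_pushO D hO himg s hu hv, h5]
  simp only [D.l]

end dif

/-! ### real functions -/

theorem pd_cast {f : V n → ℝ} {x : V n} (hf : DifferentiableAt ℝ f x) (i : Fin n) :
    pd i (fun y => ((f y : ℝ) : ℂ)) x = ((pd i f x : ℝ) : ℂ) := by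
  have h1 : HasFDerivAt (fun y => ((f y : ℝ) : ℂ))
      (Complex.ofRealCLM.comp (fderiv ℝ f x)) x :=
    (Complex.ofRealCLM.hasFDerivAt (x := f x)).comp x hf.hasFDerivAt
  unfold pd
  rw [h1.fderiv]
  rfl

theorem bl_cast (O : Set (V n)) (s : MF n) {u v : V n → ℝ} (hu : Differentiable ℝ u)
    (hv : Differentiable ℝ v) :
    bl O s (fun y => ((u y : ℝ) : ℂ)) (fun y => ((v y : ℝ) : ℂ)) =
      ((∫ x in O, gr s u v x : ℝ) : ℂ) := by
  unfold bl
  rw [← integral_complex_ofReal]
  congr 1
  funext x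
  unfold gr
  push_cast
  refine Finset.sum_congr rfl fun i _ => Finset.sum_congr rfl fun j _ => ?_
  rw [pd_cast (hu x), pd_cast (hv x)]

theorem contDiff_cast {f : V n → ℝ} (hf : ContDiff ℝ ∞ f) :
    ContDiff ℝ ∞ fun y => ((f y : ℝ) : ℂ) := Complex.ofRealCLM.contDiff.comp hf

/-- change of variables, real -/
theorem gr_push {O Ω : Set (V n)} {w K : V n → V n} (D : Dif Ω w K) (hO : IsOpen O)
    (himg : (fun x => x + w x) '' O = O) (s : MF n) {u v : V n → ℝ} (hu : ContDiff ℝ ∞ u)
    (hv : ContDiff ℝ ∞ v) :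
    ∫ x in O, gr (psh s w K) u v x =
      ∫ x in O, gr s (fun x => u (x + w x)) (fun x => v (x + w x)) x := by
  have hH : ContDiff ℝ ∞ fun x => x + w x := contDiff_id.add D.sw
  have h1 := bl_pushO D hO himg s ((contDiff_cast hu).differentiable (by simp))
    ((contDiff_cast hv).differentiable (by simp))
  have hu' : Differentiable ℝ fun x => u (x + w x) := (hu.comp hH).differentiable (by simp)
  have hv' : Differentiable ℝ fun x => v (x + w x) := (hv.comp hH).differentiable (by simp)
  rw [bl_cast O _ (hu.differentiable (by simp)) (hv.differentiable (by simp)),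
    bl_cast O _ hu' hv'] at h1
  exact_mod_cast h1

theorem pd_coord (a i : Fin n) (x : V n) : pd i (fun y : V n => y a) x = dl i a := by
  have h1 : HasFDerivAt (fun y : V n => y a) (ContinuousLinearMap.proj (R := ℝ) a) x :=
    (ContinuousLinearMap.proj (R := ℝ) (φ := fun _ : Fin n => ℝ) a).hasFDerivAt
  unfold pd
  rw [h1.fderiv]
  simp [dl, Matrix.one_apply, Pi.single_apply, eq_comm]

theorem gr_coord (s : MF n) (a : Fin n) (v : V n → ℝ) (x : V n) :
    gr s (fun y => y a) v x = ∑ j, s x a j * pd j v x := by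
  unfold gr
  simp only [pd_coord, dl, Matrix.one_apply, mul_ite, mul_one, mul_zero, ite_mul, zero_mul]
  rw [Finset.sum_eq_single a]
  · simp
  · intro b _ hb
    simp [hb]
  · intro h
    exact absurd (Finset.mem_univ a) h

theorem dv_coord (a : Fin n) (x : V n) :
    dv (fun _ => (1 : Matrix (Fin n) (Fin n) ℝ)) (fun y => ((y a : ℝ) : ℂ)) x = 0 := by
  unfold dv
  refine Finset.sum_eq_zero fun i _ => ?_
  have h1 : (fun y : V n => ∑ j, (((1 : Matrix (Fin n) (Fin n) ℝ) i j : ℝ) : ℂ) *
      pd j (fun y : V n => ((y a : ℝ) : ℂ)) y) = fun _ => ((dl i a : ℝ) : ℂ) := by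
    funext y
    have h2 : ∀ j, pd j (fun y : V n => ((y a : ℝ) : ℂ)) y = ((dl j a : ℝ) : ℂ) := by
      intro j
      rw [pd_cast (f := fun y : V n => y a) (by fun_prop), pd_coord]
    simp only [h2]
    rw [Finset.sum_eq_single i]
    · simp
    · intro b _ hb
      simp [Matrix.one_apply, Ne.symm hb]
    · intro h
      exact absurd (Finset.mem_univ i) h
  rw [h1]
  unfold pd
  simp

theorem contDiff_coord (a : Fin n) : ContDiff ℝ ∞ fun y : V n => y a := contDiff_apply ℝ ℝ a

/-- `∫_Om ∂_a φ = 0` if `φ = 0` on the boundary -/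
theorem int_pd_zero {ρ : V n → ℝ} (d : Dom ρ) (a : Fin n) {φ : V n → ℝ} (hφ : ContDiff ℝ ∞ φ)
    (h0 : ∀ x, ρ x = 0 → φ x = 0) : ∫ x in Om ρ, pd a φ x = 0 := by
  have h1 := weak (Om ρ) (isOpen_Om d) (bounded_Om d) (fun _ => 1)
    (fun i j => contDiff_const) (fun _ => Matrix.isSymm_one) (fun y => ((y a : ℝ) : ℂ))
    (fun y => ((φ y : ℝ) : ℂ)) (contDiff_cast (contDiff_coord a)) (contDiff_cast hφ)
    (fun x _ => dv_coord a x)
    (fun x hx => by rw [h0 x (frontier_zero d hx)]; simp)
  rw [bl_cast (Om ρ) _ ((contDiff_coord a).differentiable (by simp))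
    (hφ.differentiable (by simp))] at h1
  have h2 : ∫ x in Om ρ, gr (fun _ => (1 : Matrix (Fin n) (Fin n) ℝ)) (fun y => y a) φ x = 0 := by
    exact_mod_cast h1
  rw [← h2]
  congr 1
  funext x
  rw [gr_coord]
  rw [Finset.sum_eq_single a]
  · simp
  · intro b _ hb
    simp [Matrix.one_apply, Ne.symm hb]
  · intro h
    exact absurd (Finset.mem_univ a) h

/-- Row MAP. -/
theorem map : RowMAP := by
  intro n ρ d w K D hz hc
  have hρ := d.sm.continuous
  have hw := D.sw
  have hpos : ∀ x, 0 < ρ (x + w x) ↔ 0 < ρ x := fun x => rho_pos hρ hw hz hc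
  have himg : (fun x => x + w x) '' Om ρ = Om ρ := by
    ext y
    constructor
    · rintro ⟨x, hx, rfl⟩
      exact (hpos x).2 hx
    · intro hy
      refine ⟨K y, ?_, D.r y⟩
      have h1 := hpos (K y)
      rw [D.r y] at h1
      exact h1.1 hy
  have hO := isOpen_Om d
  have hf : ∀ x ∈ frontier (Om ρ), w x = 0 := fun x hx => hz x (frontier_zero d hx)
  refine ⟨hpos, fun s hs hsym => ⟨smM_psh D hs, isSymm_psh D hsym, SD_pushO D hO himg hf, ?_⟩⟩
  intro r hr hNb
  obtain ⟨r', hr', hlev⟩ := exists_level d hw hz hc hr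
  refine ⟨r', hr', fun a φ hφ h0 => ?_⟩
  have hH : ContDiff ℝ ∞ fun x => x + w x := contDiff_id.add D.sw
  have hψ : ContDiff ℝ ∞ fun x => φ (x + w x) := hφ.comp hH
  have h1 := hNb a (fun x => φ (x + w x)) hψ (fun x hx => h0 _ (hlev x hx))
  have h2 := gr_push D hO himg s (contDiff_coord a) hφ
  have h3 : ∫ x in Om ρ, gr (psh s w K) (fun y => y a) φ x =
      ∫ x in Om ρ, pd a (fun x => φ (x + w x)) x := h2.trans h1
  have h4 := int_pd_zero d a (hψ.sub hφ) (fun x hx => by
    show φ (x + w x) - φ x = 0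
    rw [hz x hx, add_zero, sub_self])
  have h5 : ∀ x, pd a (fun x => φ (x + w x) - φ x) x =
      pd a (fun x => φ (x + w x)) x - pd a φ x := by
    intro x
    have e : HasFDerivAt (fun x => φ (x + w x) - φ x)
        (fderiv ℝ (fun x => φ (x + w x)) x - fderiv ℝ φ x) x :=
      ((hψ.differentiable (by simp)) x).hasFDerivAt.sub ((hφ.differentiable (by simp)) x).hasFDerivAt
    unfold pd
    rw [e.fderiv]
    rfl
  have hpd : ∀ {f : V n → ℝ}, ContDiff ℝ ∞ f → ∀ i, Continuous (pd i f) := fun hf i =>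
    (_root_.Vale.Agent.P088.LR.H158.contDiff_pd hf i).continuous
  have h6 : ∫ x in Om ρ, pd a (fun x => φ (x + w x)) x = ∫ x in Om ρ, pd a φ x := by
    have h7 : ∫ x in Om ρ, (pd a (fun x => φ (x + w x)) x - pd a φ x) = 0 := by
      rw [← h4]
      congr 1
      funext x
      exact (h5 x).symm
    rw [integral_sub (integ d (hpd hψ a)) (integ d (hpd hφ a))] at h7
    linarith
  have hsm := smM_psh D hs
  have h8 : Continuous fun x => ∑ j, psh s w K x a j * pd j φ x :=
    continuous_finsetSum _ fun j _ => (hsm a j).continuous.mul (hpd hφ j)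
  calc ∫ x in Om ρ, ∑ j, (psh s w K x a j - dl a j) * pd j φ x
      = ∫ x in Om ρ, (∑ j, psh s w K x a j * pd j φ x - pd a φ x) := by
        congr 1
        funext x
        simp only [sub_mul, Finset.sum_sub_distrib]
        congr 1
        rw [Finset.sum_eq_single a]
        · simp [dl]
        · intro b _ hb
          simp [dl, Matrix.one_apply, Ne.symm hb]
        · intro h
          exact absurd (Finset.mem_univ a) h
    _ = (∫ x in Om ρ, ∑ j, psh s w K x a j * pd j φ x) - ∫ x in Om ρ, pd a φ x :=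
        integral_sub (integ d h8) (integ d (hpd hφ a))
    _ = 0 := by
        have h9 : ∫ x in Om ρ, ∑ j, psh s w K x a j * pd j φ x =
            ∫ x in Om ρ, gr (psh s w K) (fun y => y a) φ x := by
          congr 1
          funext x
          exact (gr_coord _ a φ x).symm
        rw [h9, h3, h6, sub_self]

end Vale.Agent.P088.LR.B.H158
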