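import Vale.Agent.P088.H158.ConnB
import Vale.Agent.P088.H72.B.DefsE

/-!
# P088, stage 2: connections over a smooth domain, general diffeomorphism `Φ`
-/

open MeasureTheory Set
open scoped ContDiff Matrix

noncomputable section

namespace Vale.Agent.P088.LR.H158

open Vale.Agent.P088.LR Vale.Agent.P088.H639

variable {n N : ℕ}

/-- The pull-back `Φ^* A`. -/
def pbF (Φ : V n → V n) (A : Cn n N) : Cn n N := fun i x =>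
  ∑ j, ((B.Jm Φ x j i : ℝ) : ℂ) • A j (Φ x)

/-- chain rule -/
theorem pd_compF {Φ : V n → V n} (hΦ : ContDiff ℝ ∞ Φ) {u : V n → ℂ} {x : V n}
    (hu : DifferentiableAt ℝ u (Φ x)) (a : Fin n) :
    pd a (fun x => u (Φ x)) x = ∑ i, ((B.Jm Φ x i a : ℝ) : ℂ) * pd i u (Φ x) := by
  have h1 : HasFDerivAt (fun x => u (Φ x)) ((fderiv ℝ u (Φ x)).comp (fderiv ℝ Φ x)) x :=
    HasFDerivAt.comp x (f := Φ) hu.hasFDerivAt ((hΦ.differentiable (by simp)) x).hasFDerivAt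
  unfold B.Jm pd
  rw [h1.fderiv, ContinuousLinearMap.comp_apply]
  conv_lhs => rw [vec_eq (fderiv ℝ Φ x (Pi.single a 1))]
  rw [map_sum]
  refine Finset.sum_congr rfl fun i _ => ?_
  rw [map_smul, Complex.real_smul]

theorem gauge_compF {Ω : Set (V n)} (hΩ : IsOpen Ω) {A₁ A₂ : Cn n N}
    {Q₁ Q₂ : V n → Matrix (Fin N) (Fin N) ℂ} (h1 : Gau₀ Ω Q₁ 0 A₁) (h2 : Gau₀ Ω Q₂ 0 A₂)
    (h12 : ∀ x ∈ frontier Ω, Q₂ x = Q₁ x) {Φ : V n → V n} (sΦ : ContDiff ℝ ∞ Φ)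
    (hm : ∀ x ∈ Ω, Φ x ∈ Ω) (hf : ∀ x ∈ frontier Ω, Φ x = x) :
    ∃ U, Gau Ω U (pbF Φ A₁) A₂ := by
  set P : V n → Matrix (Fin N) (Fin N) ℂ := fun x => Q₁ (Φ x) with hP
  have sP : SmC P := fun a b => (h1.1 a b).comp sΦ
  have clH : ∀ x ∈ closure Ω, Φ x ∈ closure Ω := by
    intro x hx
    rw [closure_eq_self_union_frontier] at hx
    rcases hx with hx | hx
    · exact subset_closure (hm x hx)
    · rw [hf x hx]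
      exact frontier_subset_closure hx
  have P1 : ∀ x ∈ closure Ω, (P x)ᴴ * P x = 1 := fun x hx => h1.2.1 _ (clH x hx)
  have P2 : ∀ x ∈ closure Ω, P x * (P x)ᴴ = 1 := fun x hx => mul_eq_one_comm.1 (P1 x hx)
  have dP : ∀ i x, pdm i P x = ∑ j, ((B.Jm Φ x j i : ℝ) : ℂ) • pdm j Q₁ (Φ x) := by
    intro i x
    ext a b
    have h3 := pd_compF sΦ (u := fun y => Q₁ y a b) (x := x) (dfa (h1.1 a b) _) i
    rw [Matrix.sum_apply]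
    simp only [Matrix.smul_apply, smul_eq_mul]
    exact h3
  have pbP : ∀ i, ∀ x ∈ Ω, pbF Φ A₁ i x = (P x)ᴴ * pdm i P x := by
    intro i x hx
    rw [dP, Matrix.mul_sum]
    unfold pbF
    refine Finset.sum_congr rfl fun j _ => ?_
    rw [Matrix.mul_smul, gau_A h1 j (hm x hx)]
  have dPP : ∀ i, ∀ x ∈ Ω, pdm i P x * (P x)ᴴ + P x * (pdm i P x)ᴴ = 0 := by
    intro i x hx
    have h3 : pdm i (fun x => P x * (P x)ᴴ) x = 0 := by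
      rw [pdm_congr hΩ (Q := fun _ => 1) (fun y hy => P2 y (subset_closure hy)) hx]
      exact pdm_const 1 x i
    rwa [pdm_mul sP (SmC_star sP), pdm_star sP] at h3
  refine ⟨fun x => (P x)ᴴ * Q₂ x, ⟨SmC_mul (SmC_star sP) h2.1, fun x hx => ?_,
    fun i x hx => ?_⟩, fun x hx => ?_⟩
  · rw [Matrix.conjTranspose_mul, Matrix.conjTranspose_conjTranspose, Matrix.mul_assoc,
      ← Matrix.mul_assoc (P x), P2 x hx, Matrix.one_mul, h2.2.1 x hx]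
  · have hx' := subset_closure hx
    rw [pdm_mul (SmC_star sP) h2.1, pdm_star sP, Matrix.conjTranspose_mul,
      Matrix.conjTranspose_conjTranspose, pbP i x hx, gau_A h2 i hx]
    have e1 : (Q₂ x)ᴴ * P x * ((P x)ᴴ * pdm i P x) * ((P x)ᴴ * Q₂ x) =
        (Q₂ x)ᴴ * (pdm i P x * (P x)ᴴ) * Q₂ x := by
      calc (Q₂ x)ᴴ * P x * ((P x)ᴴ * pdm i P x) * ((P x)ᴴ * Q₂ x)
          = (Q₂ x)ᴴ * ((P x * (P x)ᴴ) * (pdm i P x * (P x)ᴴ)) * Q₂ x := by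
            simp only [Matrix.mul_assoc]
        _ = _ := by rw [P2 x hx', Matrix.one_mul]
    have e2 : (Q₂ x)ᴴ * P x * ((pdm i P x)ᴴ * Q₂ x + (P x)ᴴ * pdm i Q₂ x) =
        (Q₂ x)ᴴ * (P x * (pdm i P x)ᴴ) * Q₂ x + (Q₂ x)ᴴ * pdm i Q₂ x := by
      rw [Matrix.mul_add]
      congr 1
      · simp only [Matrix.mul_assoc]
      · calc (Q₂ x)ᴴ * P x * ((P x)ᴴ * pdm i Q₂ x)
            = (Q₂ x)ᴴ * ((P x * (P x)ᴴ) * pdm i Q₂ x) := by simp only [Matrix.mul_assoc]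
          _ = _ := by rw [P2 x hx', Matrix.one_mul]
    rw [e1, e2, ← add_assoc, ← Matrix.add_mul, ← Matrix.mul_add, dPP i x hx]
    simp
  · show (P x)ᴴ * Q₂ x = 1
    rw [h12 x hx, hP]
    simp only [hf x hx]
    exact h1.2.1 x (frontier_subset_closure hx)

/-- **Connections, general diffeomorphism.** `A₁` is globally trivial, `A₂` is arbitrary, the data
are equal. Then the scalar data are equal, and `A₂ = U⁻¹ (Φ^* A₁) U + U⁻¹ dU` with `U = 1` on `∂Ω`,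
for every smooth `Φ` which maps `Ω` to itself and is the identity on `∂Ω`. -/
theorem connF (hn : 1 ≤ n) (hN : 1 ≤ N) {Ω : Set (V n)} (hΩ : IsOpen Ω)
    (hb : Bornology.IsBounded Ω) {g₁ g₂ : MF n} (hg₁ : SmM g₁) (hg₂ : SmM g₂)
    (hp₁ : ∀ x, (g₁ x).PosDef) (hp₂ : ∀ x, (g₂ x).PosDef) {A₁ A₂ : Cn n N} (hA₁ : SmU A₁)
    (hA₂ : SmU A₂) (hU : ∃ U, Gau₀ Ω U 0 A₁) (hD : SDU Ω g₁ A₁ g₂ A₂) :
    SD Ω (sg g₁) (sg g₂) ∧ ∀ Φ : V n → V n, ContDiff ℝ ∞ Φ → (∀ x ∈ Ω, Φ x ∈ Ω) →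
      (∀ x ∈ frontier Ω, Φ x = x) → ∃ U, Gau Ω U (pbF Φ A₁) A₂ := by
  refine ⟨(rowCONN hn hN Ω hΩ hb g₁ g₂ hg₁ hg₂ hp₁ hp₂ A₁ A₂ hA₁ hA₂ hU hD).1, ?_⟩
  obtain ⟨Q₁, hQ₁⟩ := hU
  obtain ⟨Q₂, hQ₂, hQ⟩ := exists_Q hn hΩ hb hg₁ hg₂ hp₁ hp₂ hA₁ hA₂ hQ₁ hD
  intro Φ hΦ hm hf
  exact gauge_compF hΩ hQ₁ hQ₂ hQ hΦ hm hf

/-- the same over `{ρ > 0}` with `Φ = id` on `{ρ = 0}` -/
theorem connOm (hn : 1 ≤ n) (hN : 1 ≤ N) {ρ : V n → ℝ} (hρ : Continuous ρ)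
    (hb : Bornology.IsBounded (B.Om ρ)) {g₁ g₂ : MF n} (hg₁ : SmM g₁) (hg₂ : SmM g₂)
    (hp₁ : ∀ x, (g₁ x).PosDef) (hp₂ : ∀ x, (g₂ x).PosDef) {A₁ A₂ : Cn n N} (hA₁ : SmU A₁)
    (hA₂ : SmU A₂) (hU : ∃ U, Gau₀ (B.Om ρ) U 0 A₁) (hD : SDU (B.Om ρ) g₁ A₁ g₂ A₂) :
    SD (B.Om ρ) (sg g₁) (sg g₂) ∧ ∀ Φ : V n → V n, ContDiff ℝ ∞ Φ →
      (∀ x, 0 < ρ (Φ x) ↔ 0 < ρ x) → (∀ x, ρ x = 0 → Φ x = x) →
      ∃ U, Gau (B.Om ρ) U (pbF Φ A₁) A₂ := by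
  have hO : IsOpen (B.Om ρ) := isOpen_lt continuous_const hρ
  obtain ⟨h1, h2⟩ := connF hn hN hO hb hg₁ hg₂ hp₁ hp₂ hA₁ hA₂ hU hD
  refine ⟨h1, fun Φ hΦ hs h0 => h2 Φ hΦ (fun x hx => (hs x).2 hx) fun x hx => h0 x ?_⟩
  have h3 := frontier_lt_subset_eq (continuous_const (y := (0 : ℝ))) hρ hx
  exact (show (0 : ℝ) = ρ x from h3).symm

end Vale.Agent.P088.LR.H158
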