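import Vale.Agent.P088.H158.PushB
import Vale.Agent.P088.H198.Defs2

/-!
# P088, row CONN, first part: calculus with matrices, the energy
-/

open MeasureTheory Set
open scoped ContDiff Matrix

noncomputable section

namespace Vale.Agent.P088.LR.H158

open Vale.Agent.P088.LR

variable {n N : ℕ}

/-! ### calculus -/

theorem pd_clm {E F : Type*} [NormedAddCommGroup E] [NormedSpace ℝ E] [NormedAddCommGroup F]
    [NormedSpace ℝ F] (L : E →L[ℝ] F) {f : V n → E} {x : V n} (hf : DifferentiableAt ℝ f x)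
    (i : Fin n) : pd i (fun y => L (f y)) x = L (pd i f x) := by
  have h : HasFDerivAt (fun y => L (f y)) (L.comp (fderiv ℝ f x)) x :=
    L.hasFDerivAt.comp x hf.hasFDerivAt
  unfold pd
  rw [h.fderiv]
  rfl

theorem pd_star {f : V n → ℂ} {x : V n} (hf : DifferentiableAt ℝ f x) (i : Fin n) :
    pd i (fun y => star (f y)) x = star (pd i f x) :=
  pd_clm (Complex.conjCLE : ℂ →L[ℝ] ℂ) hf i

theorem contDiff_star {f : V n → ℂ} (hf : ContDiff ℝ ∞ f) : ContDiff ℝ ∞ fun y => star (f y) :=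
  (Complex.conjCLE : ℂ →L[ℝ] ℂ).contDiff.comp hf

theorem pd_pi {f : V n → Fin N → ℂ} {x : V n} (hf : DifferentiableAt ℝ f x) (i : Fin n)
    (b : Fin N) : pd i f x b = pd i (fun y => f y b) x :=
  (pd_clm (ContinuousLinearMap.proj (R := ℝ) (φ := fun _ : Fin N => ℂ) b) hf i).symm

theorem pd_add {F : Type*} [NormedAddCommGroup F] [NormedSpace ℝ F] {f g : V n → F} {x : V n}
    (hf : DifferentiableAt ℝ f x) (hg : DifferentiableAt ℝ g x) (i : Fin n) :
    pd i (fun y => f y + g y) x = pd i f x + pd i g x := by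
  have h : HasFDerivAt (fun y => f y + g y) (fderiv ℝ f x + fderiv ℝ g x) x :=
    hf.hasFDerivAt.add hg.hasFDerivAt
  unfold pd
  rw [h.fderiv]
  rfl

theorem pd_sub {F : Type*} [NormedAddCommGroup F] [NormedSpace ℝ F] {f g : V n → F} {x : V n}
    (hf : DifferentiableAt ℝ f x) (hg : DifferentiableAt ℝ g x) (i : Fin n) :
    pd i (fun y => f y - g y) x = pd i f x - pd i g x := by
  have h : HasFDerivAt (fun y => f y - g y) (fderiv ℝ f x - fderiv ℝ g x) x :=
    hf.hasFDerivAt.sub hg.hasFDerivAt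
  unfold pd
  rw [h.fderiv]
  rfl

theorem pd_sum {F ι : Type*} [NormedAddCommGroup F] [NormedSpace ℝ F] {u : Finset ι}
    {f : ι → V n → F} {x : V n} (hf : ∀ j ∈ u, DifferentiableAt ℝ (f j) x) (i : Fin n) :
    pd i (fun y => ∑ j ∈ u, f j y) x = ∑ j ∈ u, pd i (f j) x := by
  unfold pd
  rw [(HasFDerivAt.fun_sum fun j hj => (hf j hj).hasFDerivAt).fderiv]
  simp [ContinuousLinearMap.sum_apply]

theorem pd_mul {f g : V n → ℂ} {x : V n}
    (hf : DifferentiableAt ℝ f x) (hg : DifferentiableAt ℝ g x) (i : Fin n) :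
    pd i (fun y => f y * g y) x = pd i f x * g x + f x * pd i g x := by
  unfold pd
  have h1 := (hf.hasFDerivAt.mul hg.hasFDerivAt).fderiv
  have h3 := congrArg (fun L : V n →L[ℝ] ℂ => L (Pi.single i 1)) h1
  refine Eq.trans h3 ?_
  simp only [ContinuousLinearMap.add_apply, ContinuousLinearMap.smul_apply, smul_eq_mul]
  ring

theorem pd_congr {F : Type*} [NormedAddCommGroup F] [NormedSpace ℝ F] {Ω : Set (V n)}
    (hΩ : IsOpen Ω) {f g : V n → F} (h : ∀ x ∈ Ω, f x = g x) {x : V n} (hx : x ∈ Ω) (i : Fin n) :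
    pd i f x = pd i g x := by
  unfold pd
  have h1 : f =ᶠ[nhds x] g := by
    filter_upwards [hΩ.mem_nhds hx] with y hy
    exact h y hy
  rw [h1.fderiv_eq]

theorem pd_const {F : Type*} [NormedAddCommGroup F] [NormedSpace ℝ F] (c : F) (x : V n)
    (i : Fin n) : pd i (fun _ : V n => c) x = 0 := by
  unfold pd
  simp

/-- smooth matrix fields with complex entries -/
def SmC (P : V n → Matrix (Fin N) (Fin N) ℂ) : Prop := ∀ a b, ContDiff ℝ ∞ fun x => P x a b

theorem dfa {F : Type*} [NormedAddCommGroup F] [NormedSpace ℝ F] {f : V n → F}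
    (hf : ContDiff ℝ ∞ f) (x : V n) : DifferentiableAt ℝ f x := hf.differentiable (by simp) x

theorem SmC_mul {P Q : V n → Matrix (Fin N) (Fin N) ℂ} (hP : SmC P) (hQ : SmC Q) :
    SmC fun x => P x * Q x := by
  intro a b
  simp only [Matrix.mul_apply]
  exact ContDiff.sum fun k _ => (hP a k).mul (hQ k b)

theorem SmC_star {P : V n → Matrix (Fin N) (Fin N) ℂ} (hP : SmC P) : SmC fun x => (P x)ᴴ := by
  intro a b
  simp only [Matrix.conjTranspose_apply]
  exact contDiff_star (hP b a)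

theorem contDiff_mulVec {P : V n → Matrix (Fin N) (Fin N) ℂ} (hP : SmC P) {u : V n → Fin N → ℂ}
    (hu : ContDiff ℝ ∞ u) : ContDiff ℝ ∞ fun x => P x *ᵥ u x := by
  rw [contDiff_pi]
  intro b
  simp only [Matrix.mulVec, dotProduct]
  exact ContDiff.sum fun c _ => (hP b c).mul ((contDiff_pi.1 hu) c)

theorem pdm_mul {P Q : V n → Matrix (Fin N) (Fin N) ℂ} (hP : SmC P) (hQ : SmC Q) (i : Fin n)
    (x : V n) : pdm i (fun x => P x * Q x) x = pdm i P x * Q x + P x * pdm i Q x := by
  ext a b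
  simp only [pdm, Matrix.of_apply, Matrix.add_apply, Matrix.mul_apply]
  have hd : ∀ k ∈ Finset.univ, DifferentiableAt ℝ (fun x => P x a k * Q x k b) x :=
    fun k _ => (dfa (hP a k) x).mul (dfa (hQ k b) x)
  rw [pd_sum hd, ← Finset.sum_add_distrib]
  exact Finset.sum_congr rfl fun k _ => pd_mul (dfa (hP a k) x) (dfa (hQ k b) x) i

theorem pdm_star {P : V n → Matrix (Fin N) (Fin N) ℂ} (hP : SmC P) (i : Fin n) (x : V n) :
    pdm i (fun x => (P x)ᴴ) x = (pdm i P x)ᴴ := by
  ext a b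
  simp only [pdm, Matrix.of_apply, Matrix.conjTranspose_apply]
  exact pd_star (dfa (hP b a) x) i

theorem pdm_congr {Ω : Set (V n)} (hΩ : IsOpen Ω) {P Q : V n → Matrix (Fin N) (Fin N) ℂ}
    (h : ∀ x ∈ Ω, P x = Q x) {x : V n} (hx : x ∈ Ω) (i : Fin n) : pdm i P x = pdm i Q x := by
  ext a b
  simp only [pdm, Matrix.of_apply]
  exact pd_congr hΩ (fun y hy => by rw [h y hy]) hx i

theorem pdm_const (C : Matrix (Fin N) (Fin N) ℂ) (x : V n) (i : Fin n) :
    pdm i (fun _ : V n => C) x = 0 := by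
  ext a b
  simp only [pdm, Matrix.of_apply, Matrix.zero_apply]
  exact pd_const _ x i

theorem pd_mulVec {P : V n → Matrix (Fin N) (Fin N) ℂ} (hP : SmC P) {u : V n → Fin N → ℂ}
    (hu : ContDiff ℝ ∞ u) (i : Fin n) (x : V n) :
    pd i (fun x => P x *ᵥ u x) x = pdm i P x *ᵥ u x + P x *ᵥ pd i u x := by
  funext b
  rw [pd_pi (dfa (contDiff_mulVec hP hu) x)]
  simp only [Matrix.mulVec, dotProduct, Pi.add_apply]
  have hd : ∀ k ∈ Finset.univ, DifferentiableAt ℝ (fun x => P x b k * u x k) x :=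
    fun k _ => (dfa (hP b k) x).mul (dfa ((contDiff_pi.1 hu) k) x)
  rw [pd_sum hd, ← Finset.sum_add_distrib]
  refine Finset.sum_congr rfl fun k _ => ?_
  rw [pd_mul (dfa (hP b k) x) (dfa ((contDiff_pi.1 hu) k) x) i, pd_pi (dfa hu x)]
  rfl

theorem pd_smul {c : V n → ℂ} (hc : ContDiff ℝ ∞ c) {u : V n → Fin N → ℂ}
    (hu : ContDiff ℝ ∞ u) (i : Fin n) (x : V n) :
    pd i (fun x => c x • u x) x = pd i c x • u x + c x • pd i u x := by
  funext b
  have hcu : ContDiff ℝ ∞ fun x => c x • u x := hc.smul hu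
  rw [pd_pi (dfa hcu x)]
  simp only [Pi.smul_apply, Pi.add_apply, smul_eq_mul]
  rw [pd_mul (dfa hc x) (dfa ((contDiff_pi.1 hu) b) x) i, pd_pi (dfa hu x)]

/-! ### covariant derivatives -/

theorem contDiff_cd {A : Cn n N} (hA : SmU A) {u : V n → Fin N → ℂ} (hu : ContDiff ℝ ∞ u)
    (i : Fin n) : ContDiff ℝ ∞ (cd A i u) :=
  (contDiff_pd hu i).add (contDiff_mulVec (hA.1 i) hu)

theorem cd_sub (A : Cn n N) {u v : V n → Fin N → ℂ} (hu : ContDiff ℝ ∞ u) (hv : ContDiff ℝ ∞ v)
    (i : Fin n) (x : V n) : cd A i (fun x => u x - v x) x = cd A i u x - cd A i v x := by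
  unfold cd
  rw [pd_sub (dfa hu x) (dfa hv x), Matrix.mulVec_sub]
  abel

theorem cd_smul (A : Cn n N) {c : V n → ℂ} (hc : ContDiff ℝ ∞ c) {u : V n → Fin N → ℂ}
    (hu : ContDiff ℝ ∞ u) (i : Fin n) (x : V n) :
    cd A i (fun x => c x • u x) x = pd i c x • u x + c x • cd A i u x := by
  unfold cd
  rw [pd_smul hc hu, Matrix.mulVec_smul, smul_add]
  abel

/-! ### the tensor `sg g` -/

theorem smM_adj {g : MF n} (hg : SmM g) : SmM fun x => (g x).adjugate := by
  intro i j
  simp only [Matrix.adjugate_apply]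
  have h1 : SmM fun x => (g x).updateRow j (Pi.single i 1) := by
    intro a b
    by_cases h : a = j
    · subst h
      simp only [Matrix.updateRow_self]
      exact contDiff_const
    · simp only [Matrix.updateRow_ne h]
      exact hg a b
  exact smM_det h1

theorem smM_sg {g : MF n} (hg : SmM g) (hp : ∀ x, (g x).PosDef) : SmM (sg g) := by
  have h1 : SmM fun x => (g x)⁻¹ := by
    have h2 : (fun x => (g x)⁻¹) = fun x => ((g x).det)⁻¹ • (g x).adjugate := by
      funext x
      rw [Matrix.inv_def, Ring.inverse_eq_inv']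
    rw [h2]
    exact smM_smul (smM_adj hg) ((smM_det hg).inv fun x => (hp x).det_pos.ne')
  exact smM_smul h1 ((smM_det hg).sqrt fun x => (hp x).det_pos.ne')

theorem posDef_sg {g : MF n} (hp : ∀ x, (g x).PosDef) (x : V n) : (sg g x).PosDef := by
  unfold sg
  exact (hp x).inv.smul (Real.sqrt_pos.2 (hp x).det_pos)

/-- the hermitian form on vector valued covectors -/
def qf (s : Matrix (Fin n) (Fin n) ℝ) (D D' : Fin n → Fin N → ℂ) : ℂ :=
  ∑ i, ∑ j, (s i j : ℂ) * (D i ⬝ᵥ star (D' j))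

theorem qf_re (s : Matrix (Fin n) (Fin n) ℝ) (D : Fin n → Fin N → ℂ) :
    (qf s D D).re = ∑ b, ((∑ i, ∑ j, (D i b).re * s i j * (D j b).re) +
      ∑ i, ∑ j, (D i b).im * s i j * (D j b).im) := by
  have e1 : ∀ i j, ((s i j : ℂ) * (D i ⬝ᵥ star (D j))).re =
      ∑ b, ((D i b).re * s i j * (D j b).re + (D i b).im * s i j * (D j b).im) := by
    intro i j
    rw [dotProduct, Finset.mul_sum, Complex.re_sum]
    refine Finset.sum_congr rfl fun b _ => ?_
    simp only [Pi.star_apply, Complex.mul_re, Complex.mul_im, Complex.ofReal_re,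
      Complex.ofReal_im, Complex.star_def, Complex.conj_re, Complex.conj_im]
    ring
  unfold qf
  rw [Complex.re_sum]
  simp only [Complex.re_sum, e1]
  have e2 : ∀ i, ∑ j, ∑ b, ((D i b).re * s i j * (D j b).re + (D i b).im * s i j * (D j b).im) =
      ∑ b, ∑ j, ((D i b).re * s i j * (D j b).re + (D i b).im * s i j * (D j b).im) := fun i =>
    Finset.sum_comm
  simp only [e2]
  rw [Finset.sum_comm]
  refine Finset.sum_congr rfl fun b _ => ?_
  simp only [Finset.sum_add_distrib]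

theorem pos_form {s : Matrix (Fin n) (Fin n) ℝ} (hs : s.PosDef) (v : Fin n → ℝ) :
    0 ≤ ∑ i, ∑ j, v i * s i j * v j ∧ (∑ i, ∑ j, v i * s i j * v j = 0 → v = 0) := by
  have h1 := (Matrix.posDef_iff_dotProduct_mulVec.1 hs).2
  have e : ∀ v : Fin n → ℝ, star v ⬝ᵥ (s *ᵥ v) = ∑ i, ∑ j, v i * s i j * v j := by
    intro v
    simp only [dotProduct, Matrix.mulVec, Pi.star_apply, star_trivial, Finset.mul_sum, mul_assoc]
  by_cases hv : v = 0
  · subst hv
    simp
  · have h2 := h1 hv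
    rw [e] at h2
    exact ⟨h2.le, fun h => absurd h h2.ne'⟩

theorem qf_nonneg {s : Matrix (Fin n) (Fin n) ℝ} (hs : s.PosDef) (D : Fin n → Fin N → ℂ) :
    0 ≤ (qf s D D).re ∧ ((qf s D D).re = 0 → ∀ i, D i = 0) := by
  rw [qf_re]
  have h1 : ∀ b, 0 ≤ (∑ i, ∑ j, (D i b).re * s i j * (D j b).re) +
      ∑ i, ∑ j, (D i b).im * s i j * (D j b).im := fun b =>
    add_nonneg (pos_form hs fun i => (D i b).re).1 (pos_form hs fun i => (D i b).im).1
  refine ⟨Finset.sum_nonneg fun b _ => h1 b, fun h => ?_⟩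
  have h2 := (Finset.sum_eq_zero_iff_of_nonneg fun b _ => h1 b).1 h
  intro i
  funext b
  have h3 := h2 b (Finset.mem_univ b)
  have p1 := pos_form hs fun i => (D i b).re
  have p2 := pos_form hs fun i => (D i b).im
  have h4 := p1.2 (le_antisymm (by linarith [p2.1]) p1.1)
  have h5 := p2.2 (le_antisymm (by linarith [p1.1]) p2.1)
  exact Complex.ext (congrFun h4 i) (congrFun h5 i)

theorem en_eq (Ω : Set (V n)) (g : MF n) (A : Cn n N) (u v : V n → Fin N → ℂ) :
    en Ω g A u v = ∫ x in Ω, qf (sg g x) (fun i => cd A i u x) (fun i => cd A i v x) := rfl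

theorem qf_cont {g : MF n} (hg : SmM g) (hp : ∀ x, (g x).PosDef) {A : Cn n N} (hA : SmU A)
    {u v : V n → Fin N → ℂ} (hu : ContDiff ℝ ∞ u) (hv : ContDiff ℝ ∞ v) :
    Continuous fun x => qf (sg g x) (fun i => cd A i u x) (fun i => cd A i v x) := by
  unfold qf
  refine continuous_finsetSum _ fun i _ => continuous_finsetSum _ fun j _ => ?_
  refine (Complex.continuous_ofReal.comp (smM_sg hg hp i j).continuous).mul ?_
  simp only [dotProduct, Pi.star_apply]
  refine continuous_finsetSum _ fun b _ => ?_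
  exact ((continuous_pi_iff.1 (contDiff_cd hA hu i).continuous) b).mul
    (continuous_star.comp ((continuous_pi_iff.1 (contDiff_cd hA hv j).continuous) b))

theorem intOn {Ω : Set (V n)} (hb : Bornology.IsBounded Ω) {f : V n → ℂ} (hf : Continuous f) :
    IntegrableOn f Ω :=
  (hf.continuousOn.integrableOn_compact hb.isCompact_closure).mono_set subset_closure

section en

variable {Ω : Set (V n)} (hb : Bornology.IsBounded Ω) {g : MF n} (hg : SmM g)
  (hp : ∀ x, (g x).PosDef) {A : Cn n N} (hA : SmU A)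

include hb hg hp hA

theorem en_sub {u v v' : V n → Fin N → ℂ} (hu : ContDiff ℝ ∞ u) (hv : ContDiff ℝ ∞ v)
    (hv' : ContDiff ℝ ∞ v') :
    en Ω g A u (fun x => v x - v' x) = en Ω g A u v - en Ω g A u v' := by
  rw [en_eq, en_eq, en_eq, ← integral_sub (intOn hb (qf_cont hg hp hA hu hv))
    (intOn hb (qf_cont hg hp hA hu hv'))]
  congr 1
  funext x
  unfold qf
  rw [← Finset.sum_sub_distrib]
  refine Finset.sum_congr rfl fun i _ => ?_
  rw [← Finset.sum_sub_distrib]
  refine Finset.sum_congr rfl fun j _ => ?_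
  show (sg g x i j : ℂ) * (cd A i u x ⬝ᵥ star (cd A j (fun x => v x - v' x) x)) =
    (sg g x i j : ℂ) * (cd A i u x ⬝ᵥ star (cd A j v x)) -
      (sg g x i j : ℂ) * (cd A i u x ⬝ᵥ star (cd A j v' x))
  rw [cd_sub A hv hv', star_sub, dotProduct_sub, mul_sub]

/-- energy zero implies parallel -/
theorem cd_zero (hΩ : IsOpen Ω) {u : V n → Fin N → ℂ} (hu : ContDiff ℝ ∞ u)
    (h0 : en Ω g A u u = 0) : ∀ i, ∀ x ∈ Ω, cd A i u x = 0 := by
  have hc := qf_cont hg hp hA hu hu
  have hre : ∫ x in Ω, (qf (sg g x) (fun i => cd A i u x) (fun i => cd A i u x)).re = 0 := by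
    have h1 := integral_re (𝕜 := ℂ) (intOn hb hc)
    rw [en_eq] at h0
    have h2 : (∫ x in Ω, (qf (sg g x) (fun i => cd A i u x) (fun i => cd A i u x)).re) =
        (∫ x in Ω, qf (sg g x) (fun i => cd A i u x) (fun i => cd A i u x)).re := h1
    rw [h2, h0, Complex.zero_re]
  have hcr : Continuous fun x => (qf (sg g x) (fun i => cd A i u x) (fun i => cd A i u x)).re :=
    Complex.continuous_re.comp hc
  have hio : IntegrableOn
      (fun x => (qf (sg g x) (fun i => cd A i u x) (fun i => cd A i u x)).re) Ω :=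
    (hcr.continuousOn.integrableOn_compact hb.isCompact_closure).mono_set subset_closure
  have h3 := (integral_eq_zero_iff_of_nonneg
    (fun x => (qf_nonneg (posDef_sg hp x) fun i => cd A i u x).1) hio).1 hre
  have h4 := MeasureTheory.Measure.eqOn_open_of_ae_eq h3 hΩ hcr.continuousOn continuousOn_const
  intro i x hx
  exact (qf_nonneg (posDef_sg hp x) fun i => cd A i u x).2 (h4 hx) i

end en

/-- the energy with a parallel section -/
theorem en_parallel {Ω : Set (V n)} (hΩ : IsOpen Ω) (g : MF n) (A : Cn n N)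
    {u p : V n → Fin N → ℂ} (hp : ∀ i, ∀ x ∈ Ω, cd A i p x = 0) : en Ω g A u p = 0 := by
  rw [en_eq]
  rw [setIntegral_congr_fun (g := fun _ => (0 : ℂ)) hΩ.measurableSet]
  · simp
  · intro x hx
    simp only [qf]
    refine Finset.sum_eq_zero fun i _ => Finset.sum_eq_zero fun j _ => ?_
    rw [hp j x hx]
    simp

end Vale.Agent.P088.LR.H158
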