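import Vale.Agent.P088.H72.B.DefsE
import Vale.Agent.P088.H158.BMap
import Vale.Agent.P088.H641.BHad

/-!
# P088, stage 2, row MAPE: transport by `x ↦ x + w x`, energy form
-/

open MeasureTheory Set
open scoped ContDiff Matrix

noncomputable section

namespace Vale.Agent.P088.LR.B.H158

open Vale.Agent.P088.LR Vale.Agent.P088.LR.B Vale.Agent.P088.LR.H158 Vale.Agent.P088.H639

variable {n : ℕ}

theorem cd_pd {f : V n → ℝ} (hf : ContDiff ℝ ∞ f) (i : Fin n) : ContDiff ℝ ∞ (pd i f) :=
  _root_.Vale.Agent.P088.LR.H158.contDiff_pd hf i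

theorem symm_of_psd {s : Matrix (Fin n) (Fin n) ℝ} (h : s.PosSemidef) : s.IsSymm := by
  have h1 : sᴴ = s := h.1
  rwa [Matrix.conjTranspose_eq_transpose_of_trivial] at h1

/-! ### energies -/

section dif

variable {Ω O : Set (V n)} {w K : V n → V n} (D : Dif Ω w K)

include D

theorem psd_psh {s : MF n} (hs : ∀ x, (s x).PosSemidef) (y : V n) : (psh s w K y).PosSemidef := by
  unfold psh
  refine Matrix.PosSemidef.smul ?_ (inv_nonneg.2 (D.dp (K y)).le)
  have h1 := (hs (K y)).mul_mul_conjTranspose_same (jm w (K y))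
  rwa [Matrix.conjTranspose_eq_transpose_of_trivial] at h1

theorem rb_push (hO : IsOpen O) (himg : (fun x => x + w x) '' O = O) (s : MF n) {u v : V n → ℝ}
    (hu : ContDiff ℝ ∞ u) (hv : ContDiff ℝ ∞ v) :
    rb O (psh s w K) u v = rb O s (fun x => u (x + w x)) (fun x => v (x + w x)) :=
  gr_push D hO himg s hu hv

theorem En_pushO (hO : IsOpen O) (himg : (fun x => x + w x) '' O = O)
    (hf : ∀ x ∈ frontier O, w x = 0) (s : MF n) (f : V n → ℝ) :
    En O (psh s w K) f = En O s f := by
  unfold En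
  congr 1
  ext e
  constructor
  · rintro ⟨u, hu, huf, rfl⟩
    refine ⟨fun x => u (x + w x), hu.comp (contDiff_id.add D.sw), fun x hx => ?_, ?_⟩
    · show u (x + w x) = f x
      rw [hf x hx, add_zero]
      exact huf x hx
    · exact rb_push D hO himg s hu hu
  · rintro ⟨v, hv, hvf, rfl⟩
    refine ⟨fun y => v (K y), hv.comp D.sK, fun x hx => ?_, ?_⟩
    · have h4 := D.l x
      rw [hf x hx, add_zero] at h4
      show v (K x) = f x
      rw [h4]
      exact hvf x hx
    · have hvK : ContDiff ℝ ∞ fun y => v (K y) := hv.comp D.sK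
      rw [rb_push D hO himg s hvK hvK]
      simp only [D.l]

theorem SE_pushO (hO : IsOpen O) (himg : (fun x => x + w x) '' O = O)
    (hf : ∀ x ∈ frontier O, w x = 0) {s t : MF n} (h : SE O t s) : SE O t (psh s w K) := by
  intro f hf'
  rw [En_pushO D hO himg hf]
  exact h f hf'

end dif

/-! ### the conormal derivative -/

theorem pd_mul {f g : V n → ℝ} {x : V n} (hf : DifferentiableAt ℝ f x)
    (hg : DifferentiableAt ℝ g x) (i : Fin n) :
    pd i (fun y => f y * g y) x = f x * pd i g x + g x * pd i f x := by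
  have h1 := (hf.hasFDerivAt.mul hg.hasFDerivAt).fderiv
  unfold pd
  have h2 := congrArg (fun L : V n →L[ℝ] ℝ => L (Pi.single i 1)) h1
  refine Eq.trans h2 ?_
  simp only [add_apply, smul_apply, smul_eq_mul]

theorem pd_comp_apply {w : V n → V n} (hw : ContDiff ℝ ∞ w) (a i : Fin n) (x : V n) :
    pd i (fun y => w y a) x = pd i w x a := by
  have h1 : HasFDerivAt (fun y => w y a)
      ((ContinuousLinearMap.proj (R := ℝ) (φ := fun _ : Fin n => ℝ) a).comp (fderiv ℝ w x)) x :=
    (ContinuousLinearMap.proj (R := ℝ) (φ := fun _ : Fin n => ℝ) a).hasFDerivAt.comp x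
      ((hw.differentiable (by simp)) x).hasFDerivAt
  unfold pd
  rw [h1.fderiv]
  rfl

theorem pd_H {w : V n → V n} (hw : ContDiff ℝ ∞ w) (a i : Fin n) (x : V n) :
    pd i (fun y => y a + w y a) x = jm w x a i := by
  have h1 : HasFDerivAt (fun y : V n => y a + w y a)
      (ContinuousLinearMap.proj (R := ℝ) a + fderiv ℝ (fun y => w y a) x) x :=
    (ContinuousLinearMap.proj (R := ℝ) (φ := fun _ : Fin n => ℝ) a).hasFDerivAt.add
      (((contDiff_pi.1 hw a).differentiable (by simp)) x).hasFDerivAt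
  unfold jm
  rw [← pd_comp_apply hw]
  unfold pd
  rw [h1.fderiv]
  simp [Matrix.one_apply, Pi.single_apply]

/-- at the boundary the Jacobian is `1 + c ⊗ ∇ρ` -/
theorem jm_bd {ρ : V n → ℝ} (d : Dom ρ) {w : V n → V n} (hw : ContDiff ℝ ∞ w)
    (hz : ∀ x, ρ x = 0 → w x = 0) {x : V n} (hx : ρ x = 0) :
    ∃ c : Fin n → ℝ, ∀ i j, jm w x i j = dl i j + c i * pd j ρ x := by
  have h1 : ∀ i, ∃ g : V n → ℝ, ContDiff ℝ ∞ g ∧ ∀ y, w y i = ρ y * g y := fun i =>
    B.H641.had d.sm d.nz (contDiff_pi.1 hw i) fun y hy => by rw [hz y hy]; rfl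
  choose g hg1 hg2 using h1
  refine ⟨fun i => g i x, fun i j => ?_⟩
  unfold jm
  rw [← pd_comp_apply hw]
  have e : (fun y => w y i) = fun y => ρ y * g i y := funext fun y => hg2 i y
  rw [e, pd_mul (d.sm.differentiable (by simp) x) ((hg1 i).differentiable (by simp) x), hx]
  ring

theorem det_bd {J : Matrix (Fin n) (Fin n) ℝ} {c v : Fin n → ℝ}
    (h : ∀ i j, J i j = dl i j + c i * v j) : J.det = 1 + ∑ i, c i * v i := by
  have e : J = 1 + Matrix.replicateCol Unit c * Matrix.replicateRow Unit v := by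
    ext i j
    rw [h i j]
    simp [Matrix.mul_apply, dl]
  rw [e, Matrix.det_one_add_replicateCol_mul_replicateRow]
  simp only [dotProduct]
  congr 1
  exact Finset.sum_congr rfl fun i _ => mul_comm _ _

/-- `Jᵀ ∇ρ = det J ∇ρ` -/
theorem transpose_bd {J : Matrix (Fin n) (Fin n) ℝ} {c v : Fin n → ℝ}
    (h : ∀ i j, J i j = dl i j + c i * v j) (j : Fin n) : ∑ i, J i j * v i = J.det * v j := by
  rw [det_bd h]
  simp only [h, add_mul, Finset.sum_add_distrib, one_mul]
  congr 1
  · rw [Finset.sum_eq_single j]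
    · simp [dl]
    · intro b _ hb
      simp [dl, hb]
    · intro h
      exact absurd (Finset.mem_univ j) h
  · rw [Finset.sum_mul]
    refine Finset.sum_congr rfl fun i _ => ?_
    ring

section dif2

variable {Ω : Set (V n)} {w K : V n → V n} (D : Dif Ω w K)

include D

theorem conormal {ρ : V n → ℝ} (d : Dom ρ) (hz : ∀ x, ρ x = 0 → w x = 0) {s : MF n}
    (h : ∀ a x, ρ x = 0 → gr s (fun y => y a + w y a) ρ x = pd a ρ x) (a : Fin n) {x : V n}
    (hx : ρ x = 0) : ∑ j, (psh s w K x a j - dl a j) * pd j ρ x = 0 := by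
  obtain ⟨c, hc⟩ := jm_bd d D.sw hz hx
  set J := jm w x with hJ
  have hdet : J.det ≠ 0 := (D.dp x).ne'
  have hK : K x = x := by
    have h4 := D.l x
    rwa [hz x hx, add_zero] at h4
  have h1 : ∑ i, ∑ j, s x i j * J a i * pd j ρ x = pd a ρ x := by
    rw [← h a x hx]
    unfold gr
    simp only [pd_H D.sw, ← hJ]
  have h2 : ∀ j, psh s w K x a j = J.det⁻¹ * ∑ k, ∑ l, J a l * s x l k * J j k := by
    intro j
    unfold psh
    rw [hK, Matrix.smul_apply, smul_eq_mul, Matrix.mul_apply]
    simp only [Matrix.mul_apply, Matrix.transpose_apply, Finset.sum_mul, ← hJ]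
  have h3 : ∑ j, psh s w K x a j * pd j ρ x = pd a ρ x := by
    simp only [h2]
    calc ∑ j, J.det⁻¹ * (∑ k, ∑ l, J a l * s x l k * J j k) * pd j ρ x
        = J.det⁻¹ * ∑ k, ∑ l, J a l * s x l k * ∑ j, J j k * pd j ρ x := by
          simp only [Finset.mul_sum, Finset.sum_mul]
          rw [Finset.sum_comm]
          refine Finset.sum_congr rfl fun k _ => ?_
          rw [Finset.sum_comm]
          refine Finset.sum_congr rfl fun l _ => Finset.sum_congr rfl fun j _ => ?_
          ring
      _ = J.det⁻¹ * ∑ k, ∑ l, J a l * s x l k * (J.det * pd k ρ x) := by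
          simp only [transpose_bd hc]
      _ = ∑ k, ∑ l, s x l k * J a l * pd k ρ x := by
          simp only [Finset.mul_sum]
          refine Finset.sum_congr rfl fun k _ => Finset.sum_congr rfl fun l _ => ?_
          field_simp
      _ = pd a ρ x := by
          rw [Finset.sum_comm, h1]
  simp only [sub_mul, Finset.sum_sub_distrib, h3]
  rw [Finset.sum_eq_single a]
  · simp [dl]
  · intro b _ hb
    simp [dl, Ne.symm hb]
  · intro h
    exact absurd (Finset.mem_univ a) h

end dif2

/-! ### the divergence -/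

theorem ibp {X ψ : V n → ℝ} (hX : ContDiff ℝ ∞ X) (hψ : ContDiff ℝ ∞ ψ) (hc : HasCompactSupport ψ)
    (j : Fin n) : ∫ x, X x * pd j ψ x = -∫ x, pd j X x * ψ x := by
  have hc' : HasCompactSupport (pd j ψ) := hc.fderiv_apply ℝ (Pi.single j 1)
  have i1 : Integrable (fun x => pd j X x * ψ x) :=
    ((cd_pd hX j).continuous.mul hψ.continuous).integrable_of_hasCompactSupport hc.mul_left
  have i2 : Integrable (fun x => X x * pd j ψ x) :=
    (hX.continuous.mul (cd_pd hψ j).continuous).integrable_of_hasCompactSupport hc'.mul_left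
  have i3 : Integrable (fun x => X x * ψ x) :=
    (hX.continuous.mul hψ.continuous).integrable_of_hasCompactSupport hc.mul_left
  exact integral_mul_fderiv_eq_neg_fderiv_mul_of_integrable (μ := (volume : Measure (V n)))
    (f := X) (g := ψ) (v := Pi.single j 1) i1 i2 i3
    (fun x _ => (hX.differentiable (by simp)) x) (fun x _ => (hψ.differentiable (by simp)) x)

theorem ibp_sum {X : Fin n → V n → ℝ} {ψ : V n → ℝ} (hX : ∀ j, ContDiff ℝ ∞ (X j))
    (hψ : ContDiff ℝ ∞ ψ) (hc : HasCompactSupport ψ) :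
    ∫ x, ∑ j, X j x * pd j ψ x = -∫ x, (∑ j, pd j (X j) x) * ψ x := by
  have hc' : ∀ j, HasCompactSupport (pd j ψ) := fun j => hc.fderiv_apply ℝ (Pi.single j 1)
  have i1 : ∀ j, Integrable (fun x => pd j (X j) x * ψ x) := fun j =>
    ((cd_pd (hX j) j).continuous.mul hψ.continuous).integrable_of_hasCompactSupport hc.mul_left
  have i2 : ∀ j, Integrable (fun x => X j x * pd j ψ x) := fun j =>
    ((hX j).continuous.mul (cd_pd hψ j).continuous).integrable_of_hasCompactSupport
      (hc' j).mul_left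
  rw [integral_finsetSum _ fun j _ => i2 j]
  have e : (fun x => (∑ j, pd j (X j) x) * ψ x) = fun x => ∑ j, pd j (X j) x * ψ x := by
    funext x
    rw [Finset.sum_mul]
  rw [e, integral_finsetSum _ fun j _ => i1 j, ← Finset.sum_neg_distrib]
  exact Finset.sum_congr rfl fun j _ => ibp (hX j) hψ hc j

section dif3

variable {w K : V n → V n} (D : Dif univ w K)

include D

theorem img_univ : (fun x => x + w x) '' (univ : Set (V n)) = univ := by
  refine eq_univ_of_forall fun y => ⟨K y, mem_univ _, D.r y⟩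

theorem smM_dr {s : MF n} (hs : SmM s) {u : V n → ℝ} (hu : ContDiff ℝ ∞ u) :
    ContDiff ℝ ∞ (dr s u) := by
  unfold dr
  refine ContDiff.sum fun i _ => cd_pd (ContDiff.sum fun j _ => (hs i j).mul (cd_pd hu j)) i

/-- **the divergence of the push-forward** -/
theorem div_push {s : MF n} (hs : SmM s) (hsym : ∀ x, (s x).IsSymm) (a : Fin n) (y : V n) :
    ∑ j, pd j (fun y => psh s w K y a j) y =
      dr s (fun y => y a + w y a) (K y) * (jm w (K y)).det⁻¹ := by
  set u : V n → ℝ := fun y => y a + w y a with hu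
  have hus : ContDiff ℝ ∞ u := (contDiff_coord a).add (contDiff_pi.1 D.sw a)
  have hps := smM_psh D hs
  set A : V n → ℝ := fun y => ∑ j, pd j (fun y => psh s w K y a j) y with hA
  set B : V n → ℝ := fun y => dr s u (K y) * (jm w (K y)).det⁻¹ with hB
  have hAc : Continuous A := continuous_finsetSum _ fun j _ => (cd_pd (hps a j) j).continuous
  have hdet : ContDiff ℝ ∞ fun y => (jm w (K y)).det :=
    smM_det (smM_comp (contDiff_jm D.sw) D.sK)
  have hBc : Continuous B :=
    ((smM_dr D hs hus).continuous.comp D.sK.continuous).mul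
      (hdet.continuous.inv₀ fun y => (D.dp (K y)).ne')
  have hH : ContDiff ℝ ∞ fun x => x + w x := contDiff_id.add D.sw
  suffices hAB : A = B from congrFun hAB y
  refine (hAc.ae_eq_iff_eq (volume : Measure (V n)) hBc).1
    (ae_eq_of_integral_contDiff_smul_eq hAc.locallyIntegrable hBc.locallyIntegrable
      fun φ hφ hφc => ?_)
  -- the left side
  have e1 : ∫ x, φ x • A x = -∫ x, ∑ j, psh s w K x a j * pd j φ x := by
    rw [ibp_sum (fun j => hps a j) hφ hφc, neg_neg]
    congr 1
    funext x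
    rw [smul_eq_mul, mul_comm]
  -- the right side
  set ψ : V n → ℝ := fun x => φ (x + w x) with hψ
  have hψs : ContDiff ℝ ∞ ψ := hφ.comp hH
  have hψc : HasCompactSupport ψ := by
    refine HasCompactSupport.intro (hφc.isCompact.image D.sK.continuous) fun x hx => ?_
    by_contra hne
    refine hx ⟨x + w x, subset_tsupport _ hne, D.l x⟩
  have e2 : ∫ x, φ x • B x = ∫ x, ψ x * dr s u x := by
    have h1 := integral_image_eq_integral_abs_det_fderiv_smul (volume : Measure (V n))
      MeasurableSet.univ (f := fun x => x + w x)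
      (f' := fun x => ContinuousLinearMap.id ℝ (V n) + fderiv ℝ w x)
      (fun x _ => (hasFDerivAt_H D.sw x).hasFDerivWithinAt) ((H_inj D).injOn)
      (fun y => φ y • B y)
    rw [img_univ D, setIntegral_univ, setIntegral_univ] at h1
    rw [h1]
    congr 1
    funext x
    rw [det_H, abs_of_pos (D.dp x), hB]
    simp only [D.l, smul_eq_mul, hψ]
    have hd := (D.dp x).ne'
    field_simp
  have e3 : ∫ x, ψ x * dr s u x = -∫ x, gr s u ψ x := by
    have hX : ∀ j, ContDiff ℝ ∞ (fun y => ∑ i, s y j i * pd i u y) := fun j =>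
      ContDiff.sum fun i _ => (hs j i).mul (cd_pd hus i)
    have h1 := ibp_sum hX hψs hψc
    have h2 : ∀ x, gr s u ψ x = ∑ j, (∑ i, s x j i * pd i u x) * pd j ψ x := by
      intro x
      unfold gr
      rw [Finset.sum_comm]
      refine Finset.sum_congr rfl fun j _ => ?_
      rw [Finset.sum_mul]
      refine Finset.sum_congr rfl fun i _ => ?_
      rw [(hsym x).apply j i]
    simp only [h2]
    rw [h1, neg_neg]
    congr 1
    funext x
    unfold dr
    rw [mul_comm]
  have e4 := gr_push D isOpen_univ (img_univ D) s (contDiff_coord a) hφ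
  rw [setIntegral_univ, setIntegral_univ] at e4
  have e5 : ∫ x, ∑ j, psh s w K x a j * pd j φ x = ∫ x, gr s u ψ x := by
    refine Eq.trans ?_ e4
    congr 1
    funext x
    exact (gr_coord _ a φ x).symm
  rw [e1, e2, e3, e5]

end dif3

/-- Row MAPE. -/
theorem mape : RowMAPE := by
  intro n ρ d w K D hz hc
  have hρ := d.sm.continuous
  have hw := D.sw
  have hpos : ∀ x, 0 < ρ (x + w x) ↔ 0 < ρ x := fun x => rho_pos hρ hw hz hc
  have himg : (fun x => x + w x) '' Om ρ = Om ρ := by
    ext y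
    constructor
    · rintro ⟨x, hx, rfl⟩
      exact (hpos x).2 hx
    · intro hy
      refine ⟨K y, ?_, D.r y⟩
      have h1 := hpos (K y)
      rw [D.r y] at h1
      exact h1.1 hy
  have hO := isOpen_Om d
  have hf : ∀ x ∈ frontier (Om ρ), w x = 0 := fun x hx => hz x (frontier_zero d hx)
  refine ⟨hpos, fun s hs hpsd => ⟨smM_psh D hs, psd_psh D hpsd, SE_pushO D hO himg hf,
    fun h a x hx => conormal D d hz h a hx, ?_⟩⟩
  rintro a m ⟨r, hr, E, hE, hEr⟩
  obtain ⟨r', hr', hlev⟩ := exists_level d hw hz hc hr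
  -- `ρ ∘ K = ρ θ`
  obtain ⟨θ, hθ, hθ'⟩ := B.H641.had d.sm d.nz (f := fun y => ρ (K y)) (d.sm.comp D.sK)
    (fun y hy => by
      have h4 := D.l y
      rw [hz y hy, add_zero] at h4
      show ρ (K y) = 0
      rw [h4, hy])
  have hdet : ContDiff ℝ ∞ fun y => (jm w (K y)).det⁻¹ :=
    (smM_det (smM_comp (contDiff_jm D.sw) D.sK)).inv fun y => (D.dp (K y)).ne'
  refine ⟨r', hr', fun y => θ y ^ m * E (K y) * (jm w (K y)).det⁻¹,
    ((hθ.pow m).mul (hE.comp D.sK)).mul hdet, fun y hy => ?_⟩
  rw [div_push D hs (fun x => symm_of_psd (hpsd x)) a y]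
  have h1 : |ρ (K y)| < r := by
    by_contra hcon
    push Not at hcon
    have h2 := hlev (K y) hcon
    rw [D.r y] at h2
    linarith
  have h3 : ρ (K y) = ρ y * θ y := hθ' y
  rw [hEr _ h1, h3, mul_pow]
  ring

end Vale.Agent.P088.LR.B.H158
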