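import Vale.Agent.P088.H72.X.Defs
import Vale.Agent.P088.H158.BMapE

/-!
# P088, row X_MAP: transport by `x ↦ x + w x`, general base and general coordinates
-/

open MeasureTheory Set
open scoped ContDiff Matrix

noncomputable section

namespace Vale.Agent.P088.LR.B.H158

open Vale.Agent.P088.LR Vale.Agent.P088.LR.B Vale.Agent.P088.LR.H158 Vale.Agent.P088.H639

variable {n : ℕ}

/-- chain rule, real functions -/
theorem pd_compR {w : V n → V n} (hw : ContDiff ℝ ∞ w) {u : V n → ℝ} {x : V n}
    (hu : DifferentiableAt ℝ u (x + w x)) (a : Fin n) :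
    pd a (fun x => u (x + w x)) x = ∑ i, jm w x i a * pd i u (x + w x) := by
  have h1 : HasFDerivAt (fun x => u (x + w x))
      ((fderiv ℝ u (x + w x)).comp (ContinuousLinearMap.id ℝ (V n) + fderiv ℝ w x)) x :=
    HasFDerivAt.comp x (f := fun x => x + w x) hu.hasFDerivAt (hasFDerivAt_H hw x)
  unfold pd
  rw [h1.fderiv, ContinuousLinearMap.comp_apply]
  conv_lhs => rw [vec_eq ((ContinuousLinearMap.id ℝ (V n) + fderiv ℝ w x) (Pi.single a 1))]
  rw [map_sum]
  refine Finset.sum_congr rfl fun i _ => ?_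
  rw [map_smul, H_apply, smul_eq_mul]

section dif2

variable {Ω : Set (V n)} {w K : V n → V n} (D : Dif Ω w K)

include D

/-- **the conormal derivative of the push-forward at the boundary**, any function -/
theorem gr_bd {ρ : V n → ℝ} (d : Dom ρ) (hz : ∀ x, ρ x = 0 → w x = 0) (s : MF n)
    {u : V n → ℝ} (hu : ContDiff ℝ ∞ u) {x : V n} (hx : ρ x = 0) :
    gr (psh s w K) u ρ x = gr s (fun x => u (x + w x)) ρ x := by
  obtain ⟨c, hc⟩ := jm_bd d D.sw hz hx
  have hwx : x + w x = x := by rw [hz x hx, add_zero]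
  have hK : K x = x := by
    have h4 := D.l x
    rwa [hwx] at h4
  have hdet : (jm w x).det ≠ 0 := (D.dp x).ne'
  have hT := transpose_bd hc
  have h1 : ∀ a, pd a (fun x => u (x + w x)) x = ∑ i, jm w x i a * pd i u x := by
    intro a
    rw [pd_compR D.sw ((hu.differentiable (by simp)) _), hwx]
  have h2 : ∀ i j, psh s w K x i j =
      (jm w x).det⁻¹ * ∑ k, ∑ l, jm w x i l * s x l k * jm w x j k := by
    intro i j
    unfold psh
    rw [hK, Matrix.smul_apply, smul_eq_mul, Matrix.mul_apply]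
    simp only [Matrix.mul_apply, Matrix.transpose_apply, Finset.sum_mul]
  unfold gr
  simp only [h1, h2]
  calc ∑ i, ∑ j, (jm w x).det⁻¹ * (∑ k, ∑ l, jm w x i l * s x l k * jm w x j k) * pd i u x *
        pd j ρ x
      = (jm w x).det⁻¹ * ∑ i, ∑ k, ∑ l, jm w x i l * s x l k * pd i u x *
          ∑ j, jm w x j k * pd j ρ x := by
        rw [Finset.mul_sum]
        refine Finset.sum_congr rfl fun i _ => ?_
        simp only [Finset.mul_sum, Finset.sum_mul]
        rw [Finset.sum_comm]
        refine Finset.sum_congr rfl fun k _ => ?_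
        rw [Finset.sum_comm]
        refine Finset.sum_congr rfl fun l _ => Finset.sum_congr rfl fun j _ => ?_
        ring
    _ = (jm w x).det⁻¹ * ∑ i, ∑ k, ∑ l, jm w x i l * s x l k * pd i u x *
          ((jm w x).det * pd k ρ x) := by
        simp only [hT]
    _ = ∑ i, ∑ k, ∑ l, s x l k * (jm w x i l * pd i u x) * pd k ρ x := by
        simp only [Finset.mul_sum]
        refine Finset.sum_congr rfl fun i _ => Finset.sum_congr rfl fun k _ =>
          Finset.sum_congr rfl fun l _ => ?_
        field_simp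
    _ = ∑ l, ∑ k, s x l k * (∑ i, jm w x i l * pd i u x) * pd k ρ x := by
        simp only [Finset.mul_sum, Finset.sum_mul]
        calc ∑ i, ∑ k, ∑ l, s x l k * (jm w x i l * pd i u x) * pd k ρ x
            = ∑ i, ∑ l, ∑ k, s x l k * (jm w x i l * pd i u x) * pd k ρ x :=
              Finset.sum_congr rfl fun i _ => Finset.sum_comm
          _ = ∑ l, ∑ i, ∑ k, s x l k * (jm w x i l * pd i u x) * pd k ρ x := Finset.sum_comm
          _ = ∑ l, ∑ k, ∑ i, s x l k * (jm w x i l * pd i u x) * pd k ρ x :=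
              Finset.sum_congr rfl fun l _ => Finset.sum_comm

end dif2

section dif3

variable {w K : V n → V n} (D : Dif univ w K)

include D

/-- **the operator of the push-forward** -/
theorem dr_push {s : MF n} (hs : SmM s) (hsym : ∀ x, (s x).IsSymm) {u : V n → ℝ}
    (hu : ContDiff ℝ ∞ u) (y : V n) :
    dr (psh s w K) u y = dr s (fun x => u (x + w x)) (K y) * (jm w (K y)).det⁻¹ := by
  have hH : ContDiff ℝ ∞ fun x => x + w x := contDiff_id.add D.sw
  have huH : ContDiff ℝ ∞ fun x => u (x + w x) := hu.comp hH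
  have hps := smM_psh D hs
  have hpsym := isSymm_psh D hsym
  set B : V n → ℝ := fun y => dr s (fun x => u (x + w x)) (K y) * (jm w (K y)).det⁻¹ with hB
  have hAc : Continuous (dr (psh s w K) u) := (smM_dr D hps hu).continuous
  have hdet : ContDiff ℝ ∞ fun y => (jm w (K y)).det :=
    smM_det (smM_comp (contDiff_jm D.sw) D.sK)
  have hBc : Continuous B :=
    ((smM_dr D hs huH).continuous.comp D.sK.continuous).mul
      (hdet.continuous.inv₀ fun y => (D.dp (K y)).ne')
  suffices hAB : dr (psh s w K) u = B from congrFun hAB y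
  refine (hAc.ae_eq_iff_eq (volume : Measure (V n)) hBc).1
    (ae_eq_of_integral_contDiff_smul_eq hAc.locallyIntegrable hBc.locallyIntegrable
      fun φ hφ hφc => ?_)
  -- integration by parts
  have key : ∀ (t : MF n), SmM t → (∀ x, (t x).IsSymm) → ∀ v ψ : V n → ℝ, ContDiff ℝ ∞ v →
      ContDiff ℝ ∞ ψ → HasCompactSupport ψ → ∫ x, ψ x * dr t v x = -∫ x, gr t v ψ x := by
    intro t ht htsym v ψ hv hψs hψc
    have hX : ∀ j, ContDiff ℝ ∞ (fun y => ∑ i, t y j i * pd i v y) := fun j =>
      ContDiff.sum fun i _ => (ht j i).mul (cd_pd hv i)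
    have h1 := ibp_sum hX hψs hψc
    have h2 : ∀ x, gr t v ψ x = ∑ j, (∑ i, t x j i * pd i v x) * pd j ψ x := by
      intro x
      unfold gr
      rw [Finset.sum_comm]
      refine Finset.sum_congr rfl fun j _ => ?_
      rw [Finset.sum_mul]
      refine Finset.sum_congr rfl fun i _ => ?_
      rw [(htsym x).apply j i]
    simp only [h2]
    rw [h1, neg_neg]
    congr 1
    funext x
    unfold dr
    rw [mul_comm]
  set ψ : V n → ℝ := fun x => φ (x + w x) with hψ
  have hψs : ContDiff ℝ ∞ ψ := hφ.comp hH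
  have hψc : HasCompactSupport ψ := by
    refine HasCompactSupport.intro (hφc.isCompact.image D.sK.continuous) fun x hx => ?_
    by_contra hne
    refine hx ⟨x + w x, subset_tsupport _ hne, D.l x⟩
  have e1 : ∫ x, φ x • dr (psh s w K) u x = -∫ x, gr (psh s w K) u φ x := by
    simp only [smul_eq_mul]
    exact key _ hps hpsym u φ hu hφ hφc
  have e2 : ∫ x, φ x • B x = ∫ x, ψ x * dr s (fun x => u (x + w x)) x := by
    have h1 := integral_image_eq_integral_abs_det_fderiv_smul (volume : Measure (V n))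
      MeasurableSet.univ (f := fun x => x + w x)
      (f' := fun x => ContinuousLinearMap.id ℝ (V n) + fderiv ℝ w x)
      (fun x _ => (hasFDerivAt_H D.sw x).hasFDerivWithinAt) ((H_inj D).injOn)
      (fun y => φ y • B y)
    rw [img_univ D, setIntegral_univ, setIntegral_univ] at h1
    rw [h1]
    congr 1
    funext x
    rw [det_H, abs_of_pos (D.dp x), hB]
    simp only [D.l, smul_eq_mul, hψ]
    have hd := (D.dp x).ne'
    field_simp
  have e3 := key s hs hsym _ ψ huH hψs hψc
  have e4 := gr_push D isOpen_univ (img_univ D) s hu hφ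
  rw [setIntegral_univ, setIntegral_univ] at e4
  rw [e1, e2, e3, e4]

end dif3

/-- Row X_MAP. -/
theorem mapX : BX.RowMAP := by
  intro n ρ d w K D hz hc
  have hρ := d.sm.continuous
  have hw := D.sw
  have hpos : ∀ x, 0 < ρ (x + w x) ↔ 0 < ρ x := fun x => rho_pos hρ hw hz hc
  have himg : (fun x => x + w x) '' Om ρ = Om ρ := by
    ext y
    constructor
    · rintro ⟨x, hx, rfl⟩
      exact (hpos x).2 hx
    · intro hy
      refine ⟨K y, ?_, D.r y⟩
      have h1 := hpos (K y)
      rw [D.r y] at h1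
      exact h1.1 hy
  have hO := isOpen_Om d
  have hf : ∀ x ∈ frontier (Om ρ), w x = 0 := fun x hx => hz x (frontier_zero d hx)
  refine ⟨hpos, fun s₁ s _ hs hpsd => ⟨smM_psh D hs, psd_psh D hpsd, SE_pushO D hO himg hf,
    fun w₁ w₂ hw₁ hw₂ h12 a => ?_⟩⟩
  have hu : ContDiff ℝ ∞ fun y : V n => y a + w₁ y a :=
    (contDiff_coord a).add (contDiff_pi.1 hw₁ a)
  have huH : (fun x : V n => (x + w x) a + w₁ (x + w x) a) = fun y => y a + w₂ y a := by
    funext x
    exact congrFun (h12 x) a
  refine ⟨fun h x hx => ?_, ?_⟩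
  · rw [gr_bd D d hz s hu hx]
    show gr s (fun x : V n => (x + w x) a + w₁ (x + w x) a) ρ x = _
    rw [huH]
    exact h x hx
  rintro m ⟨r, hr, E, hE, hEr⟩
  obtain ⟨r', hr', hlev⟩ := exists_level d hw hz hc hr
  -- `ρ ∘ K = ρ θ`
  obtain ⟨θ, hθ, hθ'⟩ := B.H641.had d.sm d.nz (f := fun y => ρ (K y)) (d.sm.comp D.sK)
    (fun y hy => by
      have h4 := D.l y
      rw [hz y hy, add_zero] at h4
      show ρ (K y) = 0
      rw [h4, hy])
  have hdet : ContDiff ℝ ∞ fun y => (jm w (K y)).det⁻¹ :=
    (smM_det (smM_comp (contDiff_jm D.sw) D.sK)).inv fun y => (D.dp (K y)).ne'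
  refine ⟨r', hr', fun y => θ y ^ m * E (K y) * (jm w (K y)).det⁻¹,
    ((hθ.pow m).mul (hE.comp D.sK)).mul hdet, fun y hy => ?_⟩
  rw [dr_push D hs (fun x => symm_of_psd (hpsd x)) hu y]
  have h1 : |ρ (K y)| < r := by
    by_contra hcon
    push Not at hcon
    have h2 := hlev (K y) hcon
    rw [D.r y] at h2
    linarith
  have h3 : ρ (K y) = ρ y * θ y := hθ' y
  show dr s (fun x : V n => (x + w x) a + w₁ (x + w x) a) (K y) * (jm w (K y)).det⁻¹ = _
  rw [huH, hEr _ h1, h3, mul_pow]
  ring

end Vale.Agent.P088.LR.B.H158
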