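import Vale.Agent.P088.H442.C.Defs
import Vale.Agent.P088.H158.BMapX
import Vale.Agent.P088.H129.SQ2
import Vale.Agent.P088.H501.A12
import Vale.Agent.P088.H776.A3

/-!
# P088, Theorem C, row CV: transplantation of the solutions by a diffeomorphism
-/

open MeasureTheory Set Filter Topology
open scoped ContDiff Matrix

noncomputable section

namespace Vale.Agent.P088.LR.H158

open Vale.Agent.P088.LR Vale.Agent.P088.LR.B Vale.Agent.P088.LR.CF

variable {n : ℕ}

/-! ### real and imaginary parts -/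

theorem pd_reX {F : V n → ℂ} {x : V n} (hF : DifferentiableAt ℝ F x) (i : Fin n) :
    pd i (fun y => (F y).re) x = (pd i F x).re := by
  have h1 : HasFDerivAt (fun y => (F y).re) (Complex.reCLM.comp (fderiv ℝ F x)) x :=
    (Complex.reCLM.hasFDerivAt (x := F x)).comp x hF.hasFDerivAt
  unfold pd
  rw [h1.fderiv]
  rfl

theorem pd_imX {F : V n → ℂ} {x : V n} (hF : DifferentiableAt ℝ F x) (i : Fin n) :
    pd i (fun y => (F y).im) x = (pd i F x).im := by
  have h1 : HasFDerivAt (fun y => (F y).im) (Complex.imCLM.comp (fderiv ℝ F x)) x :=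
    (Complex.imCLM.hasFDerivAt (x := F x)).comp x hF.hasFDerivAt
  unfold pd
  rw [h1.fderiv]
  rfl

theorem cd_flux {s : MF n} (hs : SmM s) {W : V n → ℂ} (hW : ContDiff ℝ ∞ W) (i : Fin n) :
    ContDiff ℝ ∞ fun y => ∑ j, (s y i j : ℂ) * pd j W y :=
  ContDiff.sum fun j _ => (Complex.ofRealCLM.contDiff.comp (hs i j)).mul (contDiff_pd hW j)

theorem dv_reX {s : MF n} (hs : SmM s) {W : V n → ℂ} (hW : ContDiff ℝ ∞ W) (x : V n) :
    dr s (fun y => (W y).re) x = (dv s W x).re := by
  unfold dr dv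
  rw [Complex.re_sum]
  refine Finset.sum_congr rfl fun i _ => ?_
  rw [← pd_reX ((cd_flux hs hW i).differentiable (by simp) x)]
  congr 1
  funext y
  rw [Complex.re_sum]
  refine Finset.sum_congr rfl fun j _ => ?_
  rw [pd_reX (hW.differentiable (by simp) y), Complex.re_ofReal_mul]

theorem dv_imX {s : MF n} (hs : SmM s) {W : V n → ℂ} (hW : ContDiff ℝ ∞ W) (x : V n) :
    dr s (fun y => (W y).im) x = (dv s W x).im := by
  unfold dr dv
  rw [Complex.im_sum]
  refine Finset.sum_congr rfl fun i _ => ?_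
  rw [← pd_imX ((cd_flux hs hW i).differentiable (by simp) x)]
  congr 1
  funext y
  rw [Complex.im_sum]
  refine Finset.sum_congr rfl fun j _ => ?_
  rw [pd_imX (hW.differentiable (by simp) y), Complex.im_ofReal_mul]

/-- **the operator of the push-forward**, complex functions -/
theorem dv_push {w K : V n → V n} (D : Dif univ w K) {s : MF n} (hs : SmM s)
    (hsym : ∀ x, (s x).IsSymm) {W : V n → ℂ} (hW : ContDiff ℝ ∞ W) (y : V n) :
    dv (psh s w K) W y =
      dv s (fun x => W (x + w x)) (K y) * (((jm w (K y)).det⁻¹ : ℝ) : ℂ) := by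
  have hH : ContDiff ℝ ∞ fun x => x + w x := contDiff_id.add D.sw
  have hWH : ContDiff ℝ ∞ fun x => W (x + w x) := hW.comp hH
  have hre : ContDiff ℝ ∞ fun y => (W y).re := Complex.reCLM.contDiff.comp hW
  have him : ContDiff ℝ ∞ fun y => (W y).im := Complex.imCLM.contDiff.comp hW
  have hps := smM_psh D hs
  refine Complex.ext ?_ ?_
  · rw [← dv_reX hps hW, B.H158.dr_push D hs hsym hre, Complex.re_mul_ofReal, ← dv_reX hs hWH]
  · rw [← dv_imX hps hW, B.H158.dr_push D hs hsym him, Complex.im_mul_ofReal, ← dv_imX hs hWH]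

theorem dv_congrX {s : MF n} {u v : V n → ℂ} {x : V n} (h : u =ᶠ[𝓝 x] v) :
    dv s u x = dv s v x := by
  unfold dv pd
  refine Finset.sum_congr rfl fun i _ => ?_
  have h1 : (fun y => ∑ j, ((s y i j : ℝ) : ℂ) * (fderiv ℝ u y) (Pi.single j 1)) =ᶠ[𝓝 x]
      (fun y => ∑ j, ((s y i j : ℝ) : ℂ) * (fderiv ℝ v y) (Pi.single j 1)) := by
    filter_upwards [h.fderiv (𝕜 := ℝ)] with y hy
    rw [hy]
  rw [h1.fderiv_eq]

/-! ### sets -/

theorem bal_core : bal n ⊆ core n := by
  intro x hx j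
  have h1 : (x j - 1 / 2) ^ 2 ≤ 1 / 16 :=
    (Finset.single_le_sum (f := fun j => (x j - 1 / 2) ^ 2) (fun i _ => sq_nonneg _)
      (Finset.mem_univ j)).trans hx
  have h2 := abs_le_of_sq_le_sq' (a := x j - 1 / 2) (b := 1 / 4) (by linarith) (by norm_num)
  exact ⟨by linarith [h2.1], by linarith [h2.2]⟩

theorem core_cube : core n ⊆ cube n := fun x hx j =>
  ⟨by linarith [(hx j).1], by linarith [(hx j).2]⟩

theorem isOpen_cube : IsOpen (cube n) := by
  have : cube n = ⋂ j, ({x | 0 < x j} ∩ {x | x j < 1} : Set (V n)) := by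
    ext x
    simp [cube]
  rw [this]
  exact isOpen_iInter_of_finite fun j =>
    (isOpen_lt continuous_const (continuous_apply j)).inter
      (isOpen_lt (continuous_apply j) continuous_const)

theorem th0_leX (i₀ j : Fin n) : |th0 i₀ j| ≤ 1 := by
  unfold th0
  by_cases h : j = i₀
  · subst h
    rw [Pi.single_eq_same]
    norm_num
  · rw [Pi.single_eq_of_ne h]
    norm_num

theorem Es_addX (θ : V n) {c d : Ix n → ℂ} (hc : RD c) (hd : RD d) (x : V n) :
    Es θ (fun k => c k + d k) x = Es θ c x + Es θ d x := by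
  unfold Es
  rw [← Summable.tsum_add (H501.rd_summable_term hc θ x) (H501.rd_summable_term hd θ x)]
  exact tsum_congr fun k => by ring

theorem rd_addX {c d : Ix n → ℂ} (hc : RD c) (hd : RD d) : RD (fun k => c k + d k) := fun m => by
  refine Summable.of_nonneg_of_le (fun k => mul_nonneg (pow_nonneg (H501.wt_pos k).le _)
    (norm_nonneg _)) (fun k => ?_) ((hc m).add (hd m))
  rw [← mul_add]
  exact mul_le_mul_of_nonneg_left (norm_add_le _ _) (pow_nonneg (H501.wt_pos k).le _)

/-! ### the row -/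

open CC in
/-- Row CV. -/
theorem cvc : RowCVC := by
  intro n Ω φ q₀ t t' q q' hB hB' w K D hpsh i₀ z c₀ c u₀ u _ hu _
  have D' : Dif univ w K := ⟨D.sw, D.sK, D.l, D.r, fun x hx => absurd (mem_univ x) hx, D.dp⟩
  have hlin : ContDiff ℝ ∞ fun x : V n => ∑ j, z j * (x j : ℂ) :=
    ContDiff.sum fun j _ => contDiff_const.mul
      (Complex.ofRealCLM.contDiff.comp (contDiff_apply ℝ ℝ j))
  have hus : ContDiff ℝ ∞ u := by
    have e : u = fun x => Complex.exp (∑ j, z j * x j) * (1 + Es (th0 i₀) c x) := funext hu.val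
    rw [e]
    exact (hlin.cexp).mul (contDiff_const.add (H501.rowA1 _ _ hu.rc).1)
  have hφ : SmP φ := hB.ba.p
  have hcφ : ContDiff ℝ ∞ (cx φ) := Complex.ofRealCLM.contDiff.comp hφ.1
  have hφ0 : ∀ x, cx φ x ≠ 0 := fun x => by
    unfold cx
    exact_mod_cast (hφ.2 x).ne'
  have hinv : ContDiff ℝ ∞ (fun y => (cx φ y)⁻¹) := hcφ.inv hφ0
  set U : V n → ℂ := fun y => u y * (cx φ y)⁻¹ with hUdef
  have hU : ContDiff ℝ ∞ U := hus.mul hinv
  have hUK : ContDiff ℝ ∞ fun y => U (K y) := hU.comp D.sK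
  set v : V n → ℂ := fun y => cx φ y * U (K y) with hvdef
  have hv : ContDiff ℝ ∞ v := hcφ.mul hUK
  have hvu : ∀ x ∉ Ω, v x = u x := by
    intro x hx
    have h1 := hφ0 x
    simp only [hvdef, hUdef, K_off D hx]
    field_simp
  set f : V n → ℂ := fun x => Complex.exp (-∑ j, z j * x j) * (v x - u x) with hfdef
  have hf : ContDiff ℝ ∞ f := (hlin.neg.cexp).mul (hv.sub hus)
  have hf0 : ∀ x ∉ Ω, f x = 0 := fun x hx => by
    simp only [hfdef, hvu x hx, sub_self, mul_zero]
  have hΩc : Ω ⊆ core n := hB.sub.trans bal_core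
  have hts : tsupport f ⊆ cube n := by
    refine (closure_minimal ?_ B.H158.isCompact_core.isClosed).trans core_cube
    intro x hx
    by_contra hcon
    exact hx (hf0 x fun h => hcon (hΩc h))
  obtain ⟨C, hC, hA⟩ := H776.rowA3 n 0
  obtain ⟨hRD, hval, -⟩ := hA f hf hts (th0 i₀) (th0_leX i₀)
  have hu'v : ∀ x ∈ cube n, Complex.exp (∑ j, z j * x j) *
      (1 + Es (th0 i₀) (fun k => c k + cf (th0 i₀) f k) x) = v x := by
    intro x hx
    rw [Es_addX _ hu.rc hRD, ← hval x hx, hfdef]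
    have h1 : Complex.exp (∑ j, z j * x j) * Complex.exp (-∑ j, z j * x j) = 1 := by
      rw [← Complex.exp_add, add_neg_cancel, Complex.exp_zero]
    have h2 := hu.val x
    linear_combination h2.symm + (v x - u x) * h1
  refine ⟨fun k => c k + cf (th0 i₀) f k, fun x => Complex.exp (∑ j, z j * x j) *
    (1 + Es (th0 i₀) (fun k => c k + cf (th0 i₀) f k) x), ⟨rd_addX hu.rc hRD, fun x => rfl, ?_⟩, ?_⟩
  · intro y hy
    have hKy : K y ∈ cube n := by
      by_cases h : y ∈ Ω
      · exact core_cube (hΩc (K_mem D h))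
      · rwa [K_off D h]
    have hev : (fun x => Complex.exp (∑ j, z j * x j) *
        (1 + Es (th0 i₀) (fun k => c k + cf (th0 i₀) f k) x)) =ᶠ[𝓝 y] v := by
      filter_upwards [isOpen_cube.mem_nhds hy] with x hx
      exact hu'v x hx
    rw [dv_congrX hev, hu'v y hy]
    have h1 := H129.dv_sq_div hB'.sm hB'.sy hφ hv y
    have e : (fun y => v y * (cx φ y)⁻¹) = fun y => U (K y) := by
      funext y
      have h := hφ0 y
      simp only [hvdef]
      field_simp
    have h2 : (fun x => φ x ^ 2 • t' x) = psh (fun x => φ x ^ 2 • t x) w K :=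
      funext fun x => (hpsh x).symm
    have hst : SmM (fun x => φ x ^ 2 • t x) := smM_smul hB.sm (hφ.1.pow 2)
    have hsy : ∀ x, ((fun x => φ x ^ 2 • t x) x).IsSymm := fun x => (hB.sy x).smul _
    rw [e, h2, dv_push D' hst hsy hUK] at h1
    have e2 : (fun x => U (K (x + w x))) = U := by
      funext x
      rw [D.l]
    have h3 : dv (fun x => φ x ^ 2 • t x) U (K y) = 0 := by
      rw [hUdef, H129.dv_sq_div hB.sm hB.sy hφ hus (K y), hu.eq (K y) hKy, hB.eq (K y)]
      unfold cx
      ring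
    rw [e2, h3, zero_mul, hB'.eq y] at h1
    have h4 : cx φ y * (dv t' v y - (q' y : ℂ) * v y) = 0 := by
      have h5 : ((φ y : ℝ) : ℂ) = cx φ y := rfl
      rw [h5] at h1
      linear_combination -h1
    have h6 := (mul_eq_zero.1 h4).resolve_left (hφ0 y)
    linear_combination h6
  · intro y hy
    show Complex.exp (∑ j, z j * y j) *
      (1 + Es (th0 i₀) (fun k => c k + cf (th0 i₀) f k) y) = _
    rw [hu'v y hy]
    rfl

end Vale.Agent.P088.LR.H158
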