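import Vale.Agent.P088.H158.ConnA

/-!
# P088, row CONN: connections
-/

open MeasureTheory Set
open scoped ContDiff Matrix

noncomputable section

namespace Vale.Agent.P088.LR.H158

open Vale.Agent.P088.LR

variable {n N : ℕ}

/-! ### pure gauge connections -/

section gau

variable {Ω : Set (V n)} (hΩ : IsOpen Ω) {A : Cn n N} {Q : V n → Matrix (Fin N) (Fin N) ℂ}
  (hQ : Gau₀ Ω Q 0 A)

include hQ

theorem gau_right {x : V n} (hx : x ∈ closure Ω) : Q x * (Q x)ᴴ = 1 :=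
  mul_eq_one_comm.1 (hQ.2.1 x hx)

theorem gau_A (i : Fin n) {x : V n} (hx : x ∈ Ω) : A i x = (Q x)ᴴ * pdm i Q x := by
  have h := hQ.2.2 i x hx
  simpa using h

theorem gau_QA (i : Fin n) {x : V n} (hx : x ∈ Ω) : Q x * A i x = pdm i Q x := by
  rw [gau_A hQ i hx, ← Matrix.mul_assoc, gau_right hQ (subset_closure hx), Matrix.one_mul]

include hΩ

theorem gau_dstar (i : Fin n) {x : V n} (hx : x ∈ Ω) :
    pdm i (fun x => (Q x)ᴴ) x = -(A i x * (Q x)ᴴ) := by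
  have h1 : pdm i (fun x => Q x * (Q x)ᴴ) x = 0 := by
    rw [pdm_congr hΩ (Q := fun _ => 1) (fun y hy => gau_right hQ (subset_closure hy)) hx]
    exact pdm_const 1 x i
  rw [pdm_mul hQ.1 (SmC_star hQ.1)] at h1
  have h2 : (Q x)ᴴ * (pdm i Q x * (Q x)ᴴ + Q x * pdm i (fun x => (Q x)ᴴ) x) = 0 := by
    rw [h1, Matrix.mul_zero]
  rw [Matrix.mul_add, ← Matrix.mul_assoc, ← gau_A hQ i hx, ← Matrix.mul_assoc,
    hQ.2.1 x (subset_closure hx), Matrix.one_mul] at h2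
  exact eq_neg_of_add_eq_zero_right h2

/-- parallel sections -/
theorem par_cd (c : Fin N → ℂ) (i : Fin n) {x : V n} (hx : x ∈ Ω) :
    cd A i (fun x => (Q x)ᴴ *ᵥ c) x = 0 := by
  unfold cd
  rw [pd_mulVec (SmC_star hQ.1) (u := fun _ => c) contDiff_const, pd_const, Matrix.mulVec_zero,
    add_zero, gau_dstar hΩ hQ i hx, Matrix.neg_mulVec, Matrix.mulVec_mulVec]
  simp

omit hΩ in
theorem par_sm (c : Fin N → ℂ) : ContDiff ℝ ∞ fun x => (Q x)ᴴ *ᵥ c :=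
  contDiff_mulVec (SmC_star hQ.1) (u := fun _ => c) contDiff_const

omit hΩ in
theorem pd_triv {u : V n → Fin N → ℂ} (hu : ContDiff ℝ ∞ u) (i : Fin n) {x : V n} (hx : x ∈ Ω) :
    pd i (fun x => Q x *ᵥ u x) x = Q x *ᵥ cd A i u x := by
  rw [pd_mulVec hQ.1 hu, ← gau_QA hQ i hx]
  unfold cd
  rw [Matrix.mulVec_add, Matrix.mulVec_mulVec, add_comm]

/-- the energy with a multiple of a parallel section -/
theorem en_test (g : MF n) {u : V n → Fin N → ℂ} (hu : ContDiff ℝ ∞ u) {ψ : V n → ℂ}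
    (hψ : ContDiff ℝ ∞ ψ) (b : Fin N) :
    en Ω g A u (fun x => star (ψ x) • ((Q x)ᴴ *ᵥ Pi.single b 1)) =
      bl Ω (sg g) (fun x => (Q x *ᵥ u x) b) ψ := by
  rw [en_eq]
  unfold bl
  refine setIntegral_congr_fun hΩ.measurableSet fun x hx => ?_
  show qf (sg g x) (fun i => cd A i u x)
    (fun i => cd A i (fun x => star (ψ x) • ((Q x)ᴴ *ᵥ Pi.single b 1)) x) = _
  unfold qf
  refine Finset.sum_congr rfl fun i _ => Finset.sum_congr rfl fun j _ => ?_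
  show (sg g x i j : ℂ) * (cd A i u x ⬝ᵥ
    star (cd A j (fun x => star (ψ x) • ((Q x)ᴴ *ᵥ Pi.single b 1)) x)) = _
  rw [cd_smul A (contDiff_star hψ) (par_sm hQ _), par_cd hΩ hQ _ j hx, smul_zero, add_zero,
    pd_star (dfa hψ x), star_smul, star_star, dotProduct_smul, Matrix.star_mulVec,
    Matrix.conjTranspose_conjTranspose, dotProduct_comm, ← Matrix.dotProduct_mulVec,
    ← pd_triv hQ hu i hx]
  have e : star (Pi.single b (1 : ℂ) : Fin N → ℂ) = Pi.single b 1 := by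
    rw [Pi.star_single, star_one]
  rw [e, single_one_dotProduct, pd_pi (dfa (contDiff_mulVec hQ.1 hu) x), smul_eq_mul]
  ring

end gau

theorem bl_star {Ω : Set (V n)} (s : MF n) {u v : V n → ℂ} (hu : ContDiff ℝ ∞ u)
    (hv : ContDiff ℝ ∞ v) :
    bl Ω s (fun x => star (u x)) (fun x => star (v x)) = star (bl Ω s u v) := by
  unfold bl
  have h1 := integral_conj (μ := (volume : Measure (V n)).restrict Ω)
    (f := fun x => ∑ i, ∑ j, (s x i j : ℂ) * pd i u x * pd j v x)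
  refine Eq.trans ?_ h1
  congr 1
  funext x
  rw [map_sum]
  refine Finset.sum_congr rfl fun i _ => ?_
  rw [map_sum]
  refine Finset.sum_congr rfl fun j _ => ?_
  rw [pd_star (dfa hu x), pd_star (dfa hv x), map_mul, map_mul, Complex.conj_ofReal]
  rfl

section tr

variable {Ω : Set (V n)} (hΩ : IsOpen Ω) (hb : Bornology.IsBounded Ω) {g : MF n} (hg : SmM g)
  (hp : ∀ x, (g x).PosDef) {A : Cn n N} (hA : SmU A) {Q : V n → Matrix (Fin N) (Fin N) ℂ}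
  (hQ : Gau₀ Ω Q 0 A)

include hΩ hb hg hp hA hQ

/-- one component in the trivialisation -/
theorem tr_comp {f h : V n → ℂ} {F H u v : V n → Fin N → ℂ} {a : Fin N}
    (hF : ∀ x ∈ frontier Ω, F x = f x • ((Q x)ᴴ *ᵥ Pi.single a 1))
    (hH : ∀ x ∈ frontier Ω, H x = star (h x) • ((Q x)ᴴ *ᵥ Pi.single a 1))
    (hu : Hr Ω g A F u) (hv : Hr Ω g A H v) :
    Hm Ω (sg g) f (fun x => (Q x *ᵥ u x) a) ∧ Hm Ω (sg g) h (fun x => star ((Q x *ᵥ v x) a)) ∧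
      en Ω g A u v = bl Ω (sg g) (fun x => (Q x *ᵥ u x) a) (fun x => star ((Q x *ᵥ v x) a)) := by
  obtain ⟨hu1, hu2, hu3⟩ := hu
  obtain ⟨hv1, hv2, hv3⟩ := hv
  have su : ContDiff ℝ ∞ fun x => (Q x *ᵥ u x) a := (contDiff_pi.1 (contDiff_mulVec hQ.1 hu1)) a
  have sv : ContDiff ℝ ∞ fun x => (Q x *ᵥ v x) a := (contDiff_pi.1 (contDiff_mulVec hQ.1 hv1)) a
  have hcl : ∀ x ∈ frontier Ω, x ∈ closure Ω := fun x hx => frontier_subset_closure hx
  have hval : ∀ (c : ℂ), ∀ x ∈ frontier Ω,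
      (Q x *ᵥ (c • ((Q x)ᴴ *ᵥ Pi.single a 1))) a = c := by
    intro c x hx
    rw [Matrix.mulVec_smul, Matrix.mulVec_mulVec, gau_right hQ (hcl x hx), Matrix.one_mulVec]
    simp
  have par0 : ∀ ψ : V n → ℂ, (∀ x ∈ frontier Ω, ψ x = 0) → ∀ x ∈ frontier Ω,
      star (ψ x) • ((Q x)ᴴ *ᵥ (Pi.single a 1 : Fin N → ℂ)) = 0 := by
    intro ψ h0 x hx
    rw [h0 x hx, star_zero, zero_smul]
  have parS : ∀ ψ : V n → ℂ, ContDiff ℝ ∞ ψ →
      ContDiff ℝ ∞ fun x => star (ψ x) • ((Q x)ᴴ *ᵥ (Pi.single a 1 : Fin N → ℂ)) :=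
    fun ψ hψ => (contDiff_star hψ).smul (par_sm hQ _)
  refine ⟨⟨su, fun x hx => ?_, fun ψ hψ h0 => ?_⟩, ⟨contDiff_star sv, fun x hx => ?_,
    fun ψ hψ h0 => ?_⟩, ?_⟩
  · show (Q x *ᵥ u x) a = f x
    rw [hu2 x hx, hF x hx, hval _ x hx]
  · rw [← en_test hΩ hQ g hu1 hψ a]
    exact hu3 _ (parS ψ hψ) (par0 ψ h0)
  · show star ((Q x *ᵥ v x) a) = h x
    rw [hv2 x hx, hH x hx, hval _ x hx, star_star]
  · have h1 := bl_star (Ω := Ω) (sg g) sv (contDiff_star hψ)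
    simp only [star_star] at h1
    rw [h1, ← en_test hΩ hQ g hv1 (contDiff_star hψ) a,
      hv3 _ (parS _ (contDiff_star hψ)) (par0 _ fun x hx => by rw [h0 x hx, star_zero]), star_zero]
  · set φ : V n → Fin N → ℂ := fun x =>
      star (star ((Q x *ᵥ v x) a)) • ((Q x)ᴴ *ᵥ Pi.single a 1) with hφ
    have sφ : ContDiff ℝ ∞ φ := parS _ (contDiff_star sv)
    have e1 : en Ω g A u φ = bl Ω (sg g) (fun x => (Q x *ᵥ u x) a)
        (fun x => star ((Q x *ᵥ v x) a)) := en_test hΩ hQ g hu1 (contDiff_star sv) a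
    have e2 : en Ω g A u (fun x => v x - φ x) = 0 := by
      refine hu3 _ (hv1.sub sφ) fun x hx => ?_
      rw [hφ]
      simp only [star_star]
      rw [hv2 x hx, hH x hx, hval _ x hx, sub_self]
    rw [en_sub hb hg hp hA hu1 hv1 sφ, e1, sub_eq_zero] at e2
    exact e2

end tr

/-! ### exit point -/

theorem exit_const (hn : 1 ≤ n) {Ω : Set (V n)} (hΩ : IsOpen Ω) (hb : Bornology.IsBounded Ω)
    {x : V n} (hx : x ∈ Ω) {G : V n → ℂ} (hG : ContDiff ℝ ∞ G)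
    (h0 : ∀ y ∈ Ω, ∀ i, pd i G y = 0) : ∃ y ∈ frontier Ω, G x = G y := by
  set e : V n := Pi.single ⟨0, hn⟩ 1 with he
  have hen : ‖e‖ = 1 := by
    rw [he, Pi.norm_single]
    simp
  set l : ℝ → V n := fun t => x + t • e with hl
  have hlc : Continuous l := by fun_prop
  obtain ⟨R, hR⟩ := hb.exists_norm_le
  set S : Set ℝ := {t | 0 ≤ t ∧ l t ∉ Ω} with hS
  have hSc : IsClosed S := by
    have h1 : IsClosed {t : ℝ | 0 ≤ t} := isClosed_le continuous_const continuous_id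
    have h2 : IsClosed {t : ℝ | l t ∉ Ω} := (hΩ.preimage hlc).isClosed_compl
    exact h1.inter h2
  have hSn : S.Nonempty := by
    refine ⟨|R| + ‖x‖ + 1, by positivity, fun h => ?_⟩
    have h1 := hR _ h
    have h2 : ‖(|R| + ‖x‖ + 1) • e‖ = |R| + ‖x‖ + 1 := by
      rw [norm_smul, hen, mul_one, Real.norm_eq_abs, abs_of_pos (by positivity)]
    have h3 : ‖(|R| + ‖x‖ + 1) • e‖ ≤ ‖l (|R| + ‖x‖ + 1)‖ + ‖x‖ := by
      have e1 : (|R| + ‖x‖ + 1) • e = l (|R| + ‖x‖ + 1) - x := by rw [hl]; simp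
      rw [e1]
      exact norm_sub_le _ _
    have := le_abs_self R
    linarith
  have hSb : BddBelow S := ⟨0, fun t ht => ht.1⟩
  set t₀ := sInf S with ht₀
  have htS : t₀ ∈ S := hSc.csInf_mem hSn hSb
  have hin : ∀ t, 0 ≤ t → t < t₀ → l t ∈ Ω := by
    intro t h1 h2
    by_contra h3
    exact absurd (csInf_le hSb (show t ∈ S from ⟨h1, h3⟩)) (not_le.2 h2)
  have hl0 : l 0 = x := by rw [hl]; simp
  have ht0 : 0 < t₀ := by
    rcases htS.1.eq_or_lt with h | h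
    · exfalso
      have := htS.2
      rw [← h, hl0] at this
      exact this hx
    · exact h
  have hcl : l t₀ ∈ closure Ω := by
    have h1 : t₀ ∈ closure (Ico 0 t₀) := by
      rw [closure_Ico ht0.ne]
      exact right_mem_Icc.2 ht0.le
    exact map_mem_closure hlc h1 fun t ht => hin t ht.1 ht.2
  refine ⟨l t₀, ?_, ?_⟩
  · rw [hΩ.frontier_eq]
    exact ⟨hcl, htS.2⟩
  · have hd : ∀ t, HasDerivAt (fun t => G (l t)) (fderiv ℝ G (l t) e) t := by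
      intro t
      have h1 : HasDerivAt l e t := by
        have h2 := ((hasDerivAt_id t).smul_const e).const_add x
        rw [one_smul] at h2
        exact h2
      exact (dfa hG (l t)).hasFDerivAt.comp_hasDerivAt t h1
    have h1 := constant_of_has_deriv_right_zero (f := fun t => G (l t)) (a := 0) (b := t₀)
      (hG.continuous.comp hlc).continuousOn (by
        intro t ht
        have h2 := (hd t).hasDerivWithinAt (s := Ici t)
        have h3 : fderiv ℝ G (l t) e = 0 := h0 _ (hin t ht.1 ht.2) ⟨0, hn⟩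
        rwa [h3] at h2) t₀ (right_mem_Icc.2 ht0.le)
    simp only [hl0] at h1
    exact h1.symm

/-! ### the second connection is a pure gauge -/

theorem exists_Q (hn : 1 ≤ n) {Ω : Set (V n)} (hΩ : IsOpen Ω) (hb : Bornology.IsBounded Ω)
    {g₁ g₂ : MF n} (hg₁ : SmM g₁) (hg₂ : SmM g₂) (hp₁ : ∀ x, (g₁ x).PosDef)
    (hp₂ : ∀ x, (g₂ x).PosDef) {A₁ A₂ : Cn n N} (hA₁ : SmU A₁) (hA₂ : SmU A₂)
    {Q₁ : V n → Matrix (Fin N) (Fin N) ℂ} (hQ : Gau₀ Ω Q₁ 0 A₁) (hD : SDU Ω g₁ A₁ g₂ A₂) :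
    ∃ Q, Gau₀ Ω Q 0 A₂ ∧ ∀ x ∈ frontier Ω, Q x = Q₁ x := by
  -- parallel sections of the second connection
  have key : ∀ a : Fin N, ∃ W : V n → Fin N → ℂ, ContDiff ℝ ∞ W ∧
      (∀ x ∈ frontier Ω, W x = (Q₁ x)ᴴ *ᵥ Pi.single a 1) ∧
      ∀ i, ∀ x ∈ Ω, cd A₂ i W x = 0 := by
    intro a
    set f : V n → Fin N → ℂ := fun x => (Q₁ x)ᴴ *ᵥ Pi.single a 1 with hf
    have sf : ContDiff ℝ ∞ f := par_sm hQ _
    obtain ⟨u, v, u', v', h1, h2, h3, h4, h5⟩ := hD f f sf sf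
    refine ⟨u', h3.1, h3.2.1, ?_⟩
    have e1 : en Ω g₁ A₁ u v = 0 := by
      have e2 : en Ω g₁ A₁ u (fun x => v x - f x) = 0 :=
        h1.2.2 _ (h2.1.sub sf) fun x hx => by rw [h2.2.1 x hx, sub_self]
      rw [en_sub hb hg₁ hp₁ hA₁ h1.1 h2.1 sf, sub_eq_zero] at e2
      rw [e2]
      exact en_parallel hΩ g₁ A₁ fun i x hx => par_cd hΩ hQ _ i hx
    have e3 : en Ω g₂ A₂ u' u' = 0 := by
      have e4 : en Ω g₂ A₂ u' (fun x => v' x - u' x) = 0 :=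
        h3.2.2 _ (h4.1.sub h3.1) fun x hx => by rw [h4.2.1 x hx, h3.2.1 x hx, sub_self]
      rw [en_sub hb hg₂ hp₂ hA₂ h3.1 h4.1 h3.1, sub_eq_zero] at e4
      rw [← e4, ← h5, e1]
    exact cd_zero hb hg₂ hp₂ hA₂ hΩ h3.1 e3
  choose W hW1 hW2 hW3 using key
  set Rm : V n → Matrix (Fin N) (Fin N) ℂ := fun x => Matrix.of fun b a => W a x b with hRm
  have sR : SmC Rm := fun b a => (contDiff_pi.1 (hW1 a)) b
  have dR : ∀ i, ∀ x ∈ Ω, pdm i Rm x = -(A₂ i x * Rm x) := by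
    intro i x hx
    ext b a
    have h1 := congrFun (hW3 a i x hx) b
    unfold cd at h1
    rw [Pi.add_apply, pd_pi (dfa (hW1 a) x), Pi.zero_apply] at h1
    have h2 : pdm i Rm x b a = pd i (fun y => W a y b) x := rfl
    have h3 : (A₂ i x * Rm x) b a = (A₂ i x *ᵥ W a x) b := rfl
    rw [h2, Matrix.neg_apply, h3]
    exact eq_neg_of_add_eq_zero_left h1
  have RF : ∀ x ∈ frontier Ω, Rm x = (Q₁ x)ᴴ := by
    intro x hx
    ext b a
    show W a x b = _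
    rw [hW2 a x hx, Matrix.mulVec_single_one]
    rfl
  have gF : ∀ x ∈ frontier Ω, (Rm x)ᴴ * Rm x = 1 := by
    intro x hx
    rw [RF x hx, Matrix.conjTranspose_conjTranspose]
    exact gau_right hQ (frontier_subset_closure hx)
  have dG : ∀ i, ∀ x ∈ Ω, pdm i (fun x => (Rm x)ᴴ * Rm x) x = 0 := by
    intro i x hx
    rw [pdm_mul (SmC_star sR) sR, pdm_star sR, dR i x hx, Matrix.conjTranspose_neg,
      Matrix.conjTranspose_mul, hA₂.2 i x, Matrix.mul_neg, neg_neg, Matrix.mul_neg,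
      Matrix.mul_assoc, add_neg_cancel]
  have gO : ∀ x ∈ Ω, (Rm x)ᴴ * Rm x = 1 := by
    intro x hx
    ext a c
    obtain ⟨y, hy, hy'⟩ := exit_const hn hΩ hb hx (G := fun x => ((Rm x)ᴴ * Rm x) a c)
      (SmC_mul (SmC_star sR) sR a c) fun y hy i => congrFun (congrFun (dG i y hy) a) c
    rw [hy', gF y hy]
  have gC : ∀ x ∈ closure Ω, (Rm x)ᴴ * Rm x = 1 := by
    intro x hx
    rw [closure_eq_self_union_frontier] at hx
    exact hx.elim (gO x) (gF x)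
  have gC' : ∀ x ∈ closure Ω, Rm x * (Rm x)ᴴ = 1 := fun x hx =>
    mul_eq_one_comm.1 (gC x hx)
  refine ⟨fun x => (Rm x)ᴴ, ⟨SmC_star sR, fun x hx => ?_, fun i x hx => ?_⟩, fun x hx => ?_⟩
  · rw [Matrix.conjTranspose_conjTranspose]
    exact gC' x hx
  · rw [Matrix.conjTranspose_conjTranspose, pdm_star sR, dR i x hx, Matrix.conjTranspose_neg,
      Matrix.conjTranspose_mul, hA₂.2 i x]
    simp only [Matrix.mul_neg, neg_neg, Pi.zero_apply, Matrix.mul_zero, Matrix.zero_mul, zero_add]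
    rw [← Matrix.mul_assoc, gC' x (subset_closure hx), Matrix.one_mul]
  · show (Rm x)ᴴ = Q₁ x
    rw [RF x hx, Matrix.conjTranspose_conjTranspose]

/-! ### composition of gauges -/

theorem gauge_comp {Ω : Set (V n)} (hΩ : IsOpen Ω) {A₁ A₂ : Cn n N}
    {Q₁ Q₂ : V n → Matrix (Fin N) (Fin N) ℂ} (h1 : Gau₀ Ω Q₁ 0 A₁) (h2 : Gau₀ Ω Q₂ 0 A₂)
    (h12 : ∀ x ∈ frontier Ω, Q₂ x = Q₁ x) {w K : V n → V n} (D : Dif Ω w K) :
    ∃ U, Gau Ω U (pb w A₁) A₂ := by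
  set P : V n → Matrix (Fin N) (Fin N) ℂ := fun x => Q₁ (x + w x) with hP
  have sH : ContDiff ℝ ∞ fun x : V n => x + w x := contDiff_id.add D.sw
  have sP : SmC P := fun a b => (h1.1 a b).comp sH
  have clH : ∀ x ∈ closure Ω, x + w x ∈ closure Ω := by
    intro x hx
    rw [closure_eq_self_union_frontier] at hx
    rcases hx with hx | hx
    · exact subset_closure (H_mem D hx)
    · rw [D.z x (frontier_off D hΩ hx), add_zero]
      exact frontier_subset_closure hx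
  have P1 : ∀ x ∈ closure Ω, (P x)ᴴ * P x = 1 := fun x hx => h1.2.1 _ (clH x hx)
  have P2 : ∀ x ∈ closure Ω, P x * (P x)ᴴ = 1 := fun x hx => mul_eq_one_comm.1 (P1 x hx)
  have dP : ∀ i x, pdm i P x = ∑ j, ((jm w x j i : ℝ) : ℂ) • pdm j Q₁ (x + w x) := by
    intro i x
    ext a b
    have h3 := pd_comp D.sw (u := fun y => Q₁ y a b) (x := x) (dfa (h1.1 a b) _) i
    rw [Matrix.sum_apply]
    simp only [Matrix.smul_apply, smul_eq_mul]
    exact h3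
  have pbP : ∀ i, ∀ x ∈ Ω, pb w A₁ i x = (P x)ᴴ * pdm i P x := by
    intro i x hx
    rw [dP, Matrix.mul_sum]
    unfold pb
    refine Finset.sum_congr rfl fun j _ => ?_
    rw [Matrix.mul_smul, gau_A h1 j (H_mem D hx)]
  have dPP : ∀ i, ∀ x ∈ Ω, pdm i P x * (P x)ᴴ + P x * (pdm i P x)ᴴ = 0 := by
    intro i x hx
    have h3 : pdm i (fun x => P x * (P x)ᴴ) x = 0 := by
      rw [pdm_congr hΩ (Q := fun _ => 1) (fun y hy => P2 y (subset_closure hy)) hx]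
      exact pdm_const 1 x i
    rwa [pdm_mul sP (SmC_star sP), pdm_star sP] at h3
  refine ⟨fun x => (P x)ᴴ * Q₂ x, ⟨SmC_mul (SmC_star sP) h2.1, fun x hx => ?_,
    fun i x hx => ?_⟩, fun x hx => ?_⟩
  · rw [Matrix.conjTranspose_mul, Matrix.conjTranspose_conjTranspose, Matrix.mul_assoc,
      ← Matrix.mul_assoc (P x), P2 x hx, Matrix.one_mul, h2.2.1 x hx]
  · have hx' := subset_closure hx
    rw [pdm_mul (SmC_star sP) h2.1, pdm_star sP, Matrix.conjTranspose_mul,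
      Matrix.conjTranspose_conjTranspose, pbP i x hx, gau_A h2 i hx]
    have e1 : (Q₂ x)ᴴ * P x * ((P x)ᴴ * pdm i P x) * ((P x)ᴴ * Q₂ x) =
        (Q₂ x)ᴴ * (pdm i P x * (P x)ᴴ) * Q₂ x := by
      calc (Q₂ x)ᴴ * P x * ((P x)ᴴ * pdm i P x) * ((P x)ᴴ * Q₂ x)
          = (Q₂ x)ᴴ * ((P x * (P x)ᴴ) * (pdm i P x * (P x)ᴴ)) * Q₂ x := by
            simp only [Matrix.mul_assoc]
        _ = _ := by rw [P2 x hx', Matrix.one_mul]
    have e2 : (Q₂ x)ᴴ * P x * ((pdm i P x)ᴴ * Q₂ x + (P x)ᴴ * pdm i Q₂ x) =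
        (Q₂ x)ᴴ * (P x * (pdm i P x)ᴴ) * Q₂ x + (Q₂ x)ᴴ * pdm i Q₂ x := by
      rw [Matrix.mul_add]
      congr 1
      · simp only [Matrix.mul_assoc]
      · calc (Q₂ x)ᴴ * P x * ((P x)ᴴ * pdm i Q₂ x)
            = (Q₂ x)ᴴ * ((P x * (P x)ᴴ) * pdm i Q₂ x) := by simp only [Matrix.mul_assoc]
          _ = _ := by rw [P2 x hx', Matrix.one_mul]
    rw [e1, e2, ← add_assoc, ← Matrix.add_mul, ← Matrix.mul_add, dPP i x hx]
    simp
  · show (P x)ᴴ * Q₂ x = 1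
    rw [h12 x hx, hP]
    simp only [D.z x (frontier_off D hΩ hx), add_zero]
    exact h1.2.1 x (frontier_subset_closure hx)

/-- **Row CONN.** -/
theorem rowCONN : RowCONN := by
  intro n N hn hN Ω hΩ hb g₁ g₂ hg₁ hg₂ hp₁ hp₂ A₁ A₂ hA₁ hA₂ ⟨Q₁, hQ₁⟩ hD
  obtain ⟨Q₂, hQ₂, hQ⟩ := exists_Q hn hΩ hb hg₁ hg₂ hp₁ hp₂ hA₁ hA₂ hQ₁ hD
  refine ⟨fun f h hf hh => ?_, fun w K D => gauge_comp hΩ hQ₁ hQ₂ hQ D⟩
  have a : Fin N := ⟨0, hN⟩
  obtain ⟨u, v, u', v', h1, h2, h3, h4, h5⟩ := hD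
    (fun x => f x • ((Q₁ x)ᴴ *ᵥ Pi.single a 1)) (fun x => star (h x) • ((Q₁ x)ᴴ *ᵥ Pi.single a 1))
    (hf.smul (par_sm hQ₁ _)) ((contDiff_star hh).smul (par_sm hQ₁ _))
  obtain ⟨r1, r2, r3⟩ := tr_comp hΩ hb hg₁ hp₁ hA₁ hQ₁ (f := f) (h := h) (a := a)
    (fun _ _ => rfl) (fun _ _ => rfl) h1 h2
  obtain ⟨r4, r5, r6⟩ := tr_comp hΩ hb hg₂ hp₂ hA₂ hQ₂ (f := f) (h := h) (a := a)
    (fun x hx => by rw [hQ x hx]) (fun x hx => by rw [hQ x hx]) h3 h4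
  exact ⟨_, _, _, _, r1, r2, r4, r5, by rw [← r3, ← r6, h5]⟩

end Vale.Agent.P088.LR.H158
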