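import Vale.Agent.P088.H198.K.Defs
import Vale.Agent.P088.H292.UPush
import Vale.Agent.P088.H158.BMap

/-!
# P088, theorem JB, row K_MP: transport of the data by `x ↦ x + w x`, `w = 0` on the boundary
-/

open MeasureTheory Set
open scoped ContDiff Matrix

noncomputable section

namespace Vale.Agent.P088.LR.K.H158

open Vale.Agent.P088.LR Vale.Agent.P088.LR.B Vale.Agent.P088.LR.U Vale.Agent.P088.LR.H158
  Vale.Agent.P088.H292.UP

variable {n N : ℕ}

section dif

variable {Ω O : Set (V n)} {w K : V n → V n} (D : Dif Ω w K) (hO : IsOpen O)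
  (himg : (fun x => x + w x) '' O = O)

include D hO himg

/-- **change of variables** over a set mapped onto itself -/
theorem ea_pushO (s : MF n) (A : Cn n N) {u v : V n → Fin N → ℂ} (hu : ContDiff ℝ ∞ u)
    (hv : ContDiff ℝ ∞ v) :
    ea O (psh s w K) (pfo A K) u v =
      ea O s A (fun x => u (x + w x)) (fun x => v (x + w x)) := by
  rw [ea_eq, ea_eq]
  have h1 := integral_image_eq_integral_abs_det_fderiv_smul (volume : Measure (V n))
    hO.measurableSet (f := fun x => x + w x)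
    (f' := fun x => ContinuousLinearMap.id ℝ (V n) + fderiv ℝ w x)
    (fun x _ => (hasFDerivAt_H D.sw x).hasFDerivWithinAt) ((H_inj D).injOn)
    (fun y => qf (psh s w K y) (fun i => cd (pfo A K) i u y) (fun i => cd (pfo A K) i v y))
  rw [himg] at h1
  rw [h1]
  refine setIntegral_congr_fun hO.measurableSet fun x _ => ?_
  show |(ContinuousLinearMap.id ℝ (V n) + fderiv ℝ w x).det| •
    qf (psh s w K (x + w x)) (fun i => cd (pfo A K) i u (x + w x))
      (fun i => cd (pfo A K) i v (x + w x)) =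
    qf (s x) (fun i => cd A i (fun x => u (x + w x)) x) (fun i => cd A i (fun x => v (x + w x)) x)
  rw [det_H, abs_of_pos (D.dp x)]
  have e1 : psh s w K (x + w x) = (jm w x).det⁻¹ • (jm w x * s x * (jm w x)ᵀ) := by
    unfold psh
    rw [D.l]
  have hd : ((jm w x).det : ℂ) ≠ 0 := by
    exact_mod_cast (D.dp x).ne'
  rw [e1, qf_smul, Complex.real_smul, Complex.ofReal_inv, ← mul_assoc, mul_inv_cancel₀ hd,
    one_mul, qf_alg]
  congr 1
  · funext a
    exact (cd_push D A hu x a).symm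
  · funext a
    exact (cd_push D A hv x a).symm

variable (hf : ∀ x ∈ frontier O, w x = 0) (hb : Bornology.IsBounded O) {s : MF n} (hs : SmM s)
  (hsym : ∀ x, (s x).IsSymm) {A : Cn n N} (hA : SmU A)

include hf hb hs hsym hA

/-- solutions are pushed forward -/
theorem lav_pushO {u : V n → Fin N → ℂ} (hu : ContDiff ℝ ∞ u) (h : ∀ x ∈ O, lav s A u x = 0) :
    ∀ x ∈ O, lav (psh s w K) (pfo A K) (fun y => u (K y)) x = 0 := by
  have hH : ContDiff ℝ ∞ fun x => x + w x := contDiff_id.add D.sw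
  have huK : ContDiff ℝ ∞ fun y => u (K y) := hu.comp D.sK
  refine lav_of_weak hO hb (smM_psh D hs) (isSymm_psh D hsym) (smU_pfo D hA) huK ?_
  intro φ hφ hφ0
  rw [ea_pushO D hO himg s A huK hφ]
  simp only [D.l]
  refine wk1 hO hb hs hsym hA hu (hφ.comp hH) h fun x hx => ?_
  show φ (x + w x) = 0
  rw [hf x hx, add_zero]
  exact hφ0 x fun hx' => (hO.frontier_eq ▸ hx).2 hx'

/-- solutions are pulled back -/
theorem lav_pullO {v : V n → Fin N → ℂ} (hv : ContDiff ℝ ∞ v)
    (h : ∀ x ∈ O, lav (psh s w K) (pfo A K) v x = 0) :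
    ∀ x ∈ O, lav s A (fun x => v (x + w x)) x = 0 := by
  have hH : ContDiff ℝ ∞ fun x => x + w x := contDiff_id.add D.sw
  refine lav_of_weak hO hb hs hsym hA (hv.comp hH) ?_
  intro φ hφ hφ0
  have hφK : ContDiff ℝ ∞ fun y => φ (K y) := hφ.comp D.sK
  have h1 := ea_pushO D hO himg s A hv hφK
  have h2 : (fun x => φ (K (x + w x))) = φ := by
    funext x
    rw [D.l]
  have h3 : ea O s A (fun x => v (x + w x)) φ = ea O (psh s w K) (pfo A K) v fun y => φ (K y) := by
    rw [h1]
    simp only [h2]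
  rw [h3]
  refine wk1 hO hb (smM_psh D hs) (isSymm_psh D hsym) (smU_pfo D hA) hv hφK h fun x hx => ?_
  have hKx : K x = x := by
    have h4 := D.l x
    rwa [hf x hx, add_zero] at h4
  show φ (K x) = 0
  rw [hKx]
  exact hφ0 x fun hx' => (hO.frontier_eq ▸ hx).2 hx'

/-- the data are transported -/
theorem dat_pushO {s₁ : MF n} (hs₁ : SmM s₁) (hsym₁ : ∀ x, (s₁ x).IsSymm) {A₁ : Cn n N}
    (hA₁ : SmU A₁) (h : Dat O s₁ A₁ s A) : Dat O s₁ A₁ (psh s w K) (pfo A K) := by
  have hH : ContDiff ℝ ∞ fun x => x + w x := contDiff_id.add D.sw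
  obtain ⟨hOr, hE⟩ := h
  constructor
  · intro u v hu hv hu0 hv0
    have hv' : ContDiff ℝ ∞ fun x => v (x + w x) := hv.comp hH
    have hu' : ContDiff ℝ ∞ fun x => u (x + w x) := hu.comp hH
    have hvs : ∀ x ∈ O, lav s A (fun x => v (x + w x)) x = 0 :=
      lav_pullO D hO himg hf hb hs hsym hA hv hv0
    have e1 := ea_pushO D hO himg s A hu hv
    have hz : ∀ {f : V n → Fin N → ℂ}, ∀ x ∈ frontier O, f (x + w x) - f x = 0 := by
      intro f x hx
      rw [hf x hx, add_zero, sub_self]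
    have e2 : ea O s A (fun x => u (x + w x)) (fun x => v (x + w x)) =
        ea O s A u (fun x => v (x + w x)) := by
      have h1 := wk2 hO hb hs hsym hA (φ := fun x => u (x + w x) - u x) hv' (hu'.sub hu) hvs hz
      rw [ea_sub_left hb hs hA hu' hu hv'] at h1
      exact sub_eq_zero.1 h1
    have e3 : ea O s₁ A₁ u (fun x => v (x + w x)) = ea O s A u (fun x => v (x + w x)) :=
      hOr u _ hu hv' hu0 hvs
    have e4 : ea O s₁ A₁ u (fun x => v (x + w x)) = ea O s₁ A₁ u v := by
      have h1 := wk1 hO hb hs₁ hsym₁ hA₁ (φ := fun x => v (x + w x) - v x) hu (hv'.sub hv) hu0 hz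
      rw [ea_sub_right hb hs₁ hA₁ hu hv' hv] at h1
      exact sub_eq_zero.1 h1
    rw [e1, e2, ← e3, e4]
  · intro u hu hu0
    obtain ⟨v, hv, hvf, hv0, hvE⟩ := hE u hu hu0
    refine ⟨fun y => v (K y), hv.comp D.sK, fun x hx => ?_,
      lav_pushO D hO himg hf hb hs hsym hA hv hv0, ?_⟩
    · have h4 := D.l x
      rw [hf x hx, add_zero] at h4
      show v (K x) = u x
      rw [h4]
      exact hvf x hx
    · have hvK : ContDiff ℝ ∞ fun y => v (K y) := hv.comp D.sK
      rw [ea_pushO D hO himg s A hvK hvK]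
      simp only [D.l]
      exact hvE

end dif

/-- **Row K_MP.** -/
theorem mp : RowMP := by
  intro n N ρ d w K D hz hpos s A hs hsym hA
  have himg : (fun x => x + w x) '' Om ρ = Om ρ := by
    ext y
    constructor
    · rintro ⟨x, hx, rfl⟩
      exact (hpos x).2 hx
    · intro hy
      refine ⟨K y, ?_, D.r y⟩
      have h1 := hpos (K y)
      rw [D.r y] at h1
      exact h1.1 hy
  have hf : ∀ x ∈ frontier (Om ρ), w x = 0 := fun x hx => hz x (B.H158.frontier_zero d hx)
  exact ⟨smU_pfo D hA, fun s₁ A₁ hs₁ hsym₁ hA₁ h => dat_pushO D (B.H158.isOpen_Om d) himg hf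
    (B.H158.bounded_Om d) hs hsym hA hs₁ hsym₁ hA₁ h⟩

end Vale.Agent.P088.LR.K.H158
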