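import Vale.Agent.P088.H72.X.Defs2
import Vale.Agent.P088.H158.ConnC

/-!
# P088: local rigidity of conformally flat metrics on every smooth bounded domain, with connections
-/

open MeasureTheory Set
open scoped ContDiff Matrix

noncomputable section

namespace Vale.Agent.P088.LR.SdX158

open Vale.Agent.P088.LR B CF

variable {n : ℕ}

/-- `Φ` is a diffeomorphism of `ℝ^n` (with inverse `Ψ`) which preserves `{ρ > 0}`, is the identity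
on `{ρ = 0}`, and `g = Φ^* (c e)` on `{ρ ≥ 0}`. -/
def ConfOn (ρ c : V n → ℝ) (g : MF n) (Φ Ψ : V n → V n) : Prop :=
  ContDiff ℝ ∞ Φ ∧ ContDiff ℝ ∞ Ψ ∧ (∀ x, Ψ (Φ x) = x) ∧ (∀ y, Φ (Ψ y) = y) ∧
    (∀ x, ρ x = 0 → Φ x = x) ∧ (∀ x, 0 < ρ (Φ x) ↔ 0 < ρ x) ∧ (∀ x, 0 < (Jm Φ x).det) ∧
    ∀ x, 0 ≤ ρ x → g x = c (Φ x) • ((Jm Φ x)ᵀ * Jm Φ x)

/-- The conclusion for the pair of metrics `c e`, `g`, and for pairs with connections. -/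
def RigOn (ρ c : V n → ℝ) (g : MF n) : Prop :=
  (H639.SE (Om ρ) (sg (sc c)) (sg g) → ∃ Φ Ψ, ConfOn ρ c g Φ Ψ) ∧
    ∀ N : ℕ, 1 ≤ N → ∀ A₁ A₂ : Cn n N, SmU A₁ → SmU A₂ → (∃ U, Gau₀ (Om ρ) U 0 A₁) →
      SDU (Om ρ) (sc c) A₁ g A₂ →
      ∃ Φ Ψ U, ConfOn ρ c g Φ Ψ ∧ Gau (Om ρ) U (H158.pbF Φ A₁) A₂

theorem smM_scX {c : V n → ℝ} (hc : ContDiff ℝ ∞ c) : SmM (sc c) := by
  intro i j
  show ContDiff ℝ ∞ fun x => (c x • (1 : Matrix (Fin n) (Fin n) ℝ)) i j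
  simp only [Matrix.smul_apply, smul_eq_mul]
  exact hc.mul contDiff_const

theorem posDef_scX {c : V n → ℝ} (hc : ∀ x, 0 < c x) (x : V n) : (sc c x).PosDef :=
  Matrix.PosDef.one.smul (hc x)

/-- metrics imply connections -/
theorem rigOn (hn : 3 ≤ n) {ρ c : V n → ℝ} (hρ : SDom ρ) (hc : SmP c) {g : MF n} (hg : SmM g)
    (hp : ∀ x, (g x).PosDef)
    (hmain : H639.SE (Om ρ) (sg (sc c)) (sg g) → ∃ Φ Ψ, ConfOn ρ c g Φ Ψ) : RigOn ρ c g := by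
  refine ⟨hmain, ?_⟩
  intro N hN A₁ A₂ hA₁ hA₂ hT hD
  have hb : Bornology.IsBounded (Om ρ) :=
    hρ.bd.subset fun x (hx : 0 < ρ x) => (show 0 ≤ ρ x from hx.le)
  have h1M : SmM (sc c) := smM_scX hc.1
  have h1P : ∀ x, (sc c x).PosDef := posDef_scX hc.2
  obtain ⟨hsd, hconn⟩ := H158.connOm (by omega) hN hρ.sm.continuous hb h1M hg h1P hp hA₁ hA₂ hT hD
  obtain ⟨Φ, Ψ, hF⟩ := hmain (H639.SE_of_SD hb
    (fun i j => (H833.smM_sg hg hp i j).continuous) (H833.symm_sg hp) (H639.psd_sg hp)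
    (fun i j => (H833.smM_sg h1M h1P i j).continuous) (H833.symm_sg h1P)
    (H639.psd_sg h1P) hsd)
  obtain ⟨U, hU⟩ := hconn Φ hF.1 hF.2.2.2.2.2.1 hF.2.2.2.2.1
  exact ⟨Φ, Ψ, U, hF, hU⟩

/-- Base `c e` near the flat metric, with connections; from `FinC`. -/
theorem smooth_domainsC (hF : BX.FinC) (n : ℕ) (hn : 3 ≤ n) (ρ : V n → ℝ) (hρ : SDom ρ) :
    ∃ (k : ℕ) (ε : ℝ), 0 < ε ∧ ∀ (c : V n → ℝ) (g : MF n), SmP c → SmM g →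
      (∀ x, (g x).PosDef) → Cl k ε (fun x => c x - 1) →
      (∀ i j, Cl k ε (fun x => g x i j - dl i j)) → RigOn ρ c g := by
  obtain ⟨k, ε, hε, h⟩ := hF n hn ρ hρ
  exact ⟨k, ε, hε, fun c g hc hg hp h1 h2 => rigOn hn hρ hc hg hp (h c g hc.1 hc.2 hg hp h1 h2)⟩

/-- Every base `c e`, with connections; from `FinCC`. -/
theorem smooth_domainsCC (hF : BY.FinCC) (n : ℕ) (hn : 3 ≤ n) (ρ : V n → ℝ) (hρ : SDom ρ)
    (c : V n → ℝ) (hc : SmP c) :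
    ∃ (k : ℕ) (ε : ℝ), 0 < ε ∧ ∀ g : MF n, SmM g → (∀ x, (g x).PosDef) →
      (∀ i j, Cl k ε (fun x => g x i j - sc c x i j)) → RigOn ρ c g := by
  obtain ⟨k, ε, hε, h⟩ := hF n hn ρ hρ c hc
  exact ⟨k, ε, hε, fun g hg hp h2 => rigOn hn hρ hc hg hp (h g hg hp h2)⟩

end Vale.Agent.P088.LR.SdX158
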