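import Vale.Agent.P088.H72.X.Defs2
import Vale.Agent.P088.H198.SdX

/-!
# P088: local rigidity of EVERY metric `c e` on every smooth bounded domain, with connections
-/

open MeasureTheory Set
open scoped ContDiff Matrix

noncomputable section

namespace Vale.Agent.P088.LR

open B CF

/-- The conclusion for the metrics `c e` and `g` on `{ρ > 0}`. Equal Dirichlet energies imply
`g = Φ^* (c e)`; equal data of `(c e, A₁)` and `(g, A₂)`, `A₁` globally trivial, imply the same and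
`A₂ = U⁻¹ (Φ^* A₁) U + U⁻¹ dU`, `U = 1` on the boundary. -/
def RigOn {n : ℕ} (ρ c : V n → ℝ) (g : MF n) : Prop :=
  (H639.SE (Om ρ) (sg (sc c)) (sg g) → ∃ Φ Ψ, ConfOn ρ c g Φ Ψ) ∧
    ∀ N : ℕ, 1 ≤ N → ∀ A₁ A₂ : Cn n N, SmU A₁ → SmU A₂ → (∃ U, Gau₀ (Om ρ) U 0 A₁) →
      SDU (Om ρ) (sc c) A₁ g A₂ →
      ∃ Φ Ψ U, ConfOn ρ c g Φ Ψ ∧ Gau (Om ρ) U (H158.pbF Φ A₁) A₂

/-- Metrics and connections near `c e` on a smooth bounded domain, `c > 0` any smooth function;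
from `FinCC`. -/
theorem smooth_domainsY (hF : BY.FinCC) (n : ℕ) (hn : 3 ≤ n) (ρ : V n → ℝ) (hρ : SDom ρ)
    (c : V n → ℝ) (hc : ContDiff ℝ ∞ c) (hc0 : ∀ x, 0 < c x) :
    ∃ (k : ℕ) (ε : ℝ), 0 < ε ∧ ∀ g : MF n, SmM g → (∀ x, (g x).PosDef) →
    (∀ i j, Cl k ε (fun x => g x i j - sc c x i j)) → RigOn ρ c g := by
  obtain ⟨k, ε, hε, h⟩ := hF n hn ρ hρ c ⟨hc, hc0⟩
  refine ⟨k, ε, hε, fun g hg hp hcl => ?_⟩
  have hmain : H639.SE (Om ρ) (sg (sc c)) (sg g) → ∃ Φ Ψ, ConfOn ρ c g Φ Ψ :=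
    fun hS => h g hg hp hcl hS
  exact ⟨hmain, fun N hN A₁ A₂ hA₁ hA₂ hT hD =>
    conf_conn hn hρ hc hc0 hg hp hmain N hN A₁ A₂ hA₁ hA₂ hT hD⟩

/-- Both forms: all pairs `c e`, `g` near `e` (uniformly), and every `c e` with all `g` near it. -/
theorem smooth_domains3 (hF : BY.FinCC) (n : ℕ) (hn : 3 ≤ n) (ρ : V n → ℝ) (hρ : SDom ρ) :
    (∃ (k : ℕ) (ε : ℝ), 0 < ε ∧ ∀ (c : V n → ℝ) (g : MF n), ContDiff ℝ ∞ c → (∀ x, 0 < c x) →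
      SmM g → (∀ x, (g x).PosDef) → Cl k ε (fun x => c x - 1) →
      (∀ i j, Cl k ε (fun x => g x i j - dl i j)) → RigOn ρ c g) ∧
    ∀ c : V n → ℝ, ContDiff ℝ ∞ c → (∀ x, 0 < c x) → ∃ (k : ℕ) (ε : ℝ), 0 < ε ∧
      ∀ g : MF n, SmM g → (∀ x, (g x).PosDef) →
      (∀ i j, Cl k ε (fun x => g x i j - sc c x i j)) → RigOn ρ c g :=
  ⟨smooth_domainsX n hn ρ hρ, fun c hc hc0 => smooth_domainsY hF n hn ρ hρ c hc hc0⟩

end Vale.Agent.P088.LR
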