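import Vale.Agent.P088.H158.SdY
import Vale.Agent.P088.H72.X.TopC

/-!
# P088: SmoothDomains over theorem C
-/

open MeasureTheory Set
open scoped ContDiff Matrix

noncomputable section

namespace Vale.Agent.P088.LR

open B CF

theorem smooth_domains_top (hT : CC.RowTOP) (n : ℕ) (hn : 3 ≤ n) (ρ : V n → ℝ) (hρ : SDom ρ) :
    (∃ (k : ℕ) (ε : ℝ), 0 < ε ∧ ∀ (c : V n → ℝ) (g : MF n), ContDiff ℝ ∞ c → (∀ x, 0 < c x) →
      SmM g → (∀ x, (g x).PosDef) → Cl k ε (fun x => c x - 1) →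
      (∀ i j, Cl k ε (fun x => g x i j - dl i j)) → RigOn ρ c g) ∧
    ∀ c : V n → ℝ, ContDiff ℝ ∞ c → (∀ x, 0 < c x) → ∃ (k : ℕ) (ε : ℝ), 0 < ε ∧
      ∀ g : MF n, SmM g → (∀ x, (g x).PosDef) →
      (∀ i j, Cl k ε (fun x => g x i j - sc c x i j)) → RigOn ρ c g :=
  smooth_domains3 (BY.finCC_of_top hT) n hn ρ hρ

end Vale.Agent.P088.LR
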